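import Vale.Agent.P180.R2.H589.Ux.Au7
import Vale.Agent.P180.R2.H589.Un.Au8

/-!
P180: automorphisms of quotients of `SU(V)`: the form for the classes of pairs, any
characteristic.
-/

set_option linter.all false

namespace Vale.Agent.P180.R2.H589.Ux

open Subgroup Module
open Vale.Agent.P180.R2.H589.Sch
open Vale.Agent.P180.R2.H589.Un

section Pairs

variable {K : Type} [Field K] [Finite K] {V : Type} [AddCommGroup V] [Module K V]
  [Module.Finite K V] {θ : K ≃+* K} {h : V → V → K} (hθ : Iv θ) (hB : Hm θ h)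

include hθ hB

/-- **Semilinear similitudes, for isometry groups in `SL(V)`.** -/
theorem ssim_of_aut (hF : 3 < Nat.card (FF θ)) (hd : 2 < finrank K V)
    {X : Subgroup (SpecialLinearGroup K V)}
    (hX : ∀ g : SpecialLinearGroup K V, g ∈ X ↔ ∀ x y, h (g x) (g y) = h x y)
    {L : Type*} [Group L] {π : X →* L} (hπ : Function.Surjective π) (hk : π.ker ≤ center X)
    (α : MulAut L) :
    ∃ (σ : K ≃+* K) (κ : K) (g : V ≃+ V), κ ≠ 0 ∧ (∀ (c : K) v, g (c • v) = σ c • g v) ∧
      (∀ u v, h (g u) (g v) = κ * σ (h u v)) ∧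
      ∀ x y : X, (∀ v, g ((x : SpecialLinearGroup K V) v) = (y : SpecialLinearGroup K V) (g v)) →
        α (π x) = π y := by
  obtain ⟨e, π', h1, h3, h4, h5⟩ := exists_model hX hπ hk
  obtain ⟨g, σ, κ, hg, hind⟩ := exists_ssim_L hθ hB hF hd h1 h3 α
  refine ⟨σ, κ, g, hg.ne, hg.sl, hg.form, fun x y hxy => ?_⟩
  obtain ⟨x, rfl⟩ := e.surjective x
  obtain ⟨y, rfl⟩ := e.surjective y
  rw [← h4, ← h4]
  refine hind x y fun v => ?_
  have h6 := hxy v
  rwa [h5, h5] at h6

/-- the same for the simple group, `2 < |F|` -/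
theorem ssim_of_aut_T (hF : 2 < Nat.card (FF θ)) (hd : 2 < finrank K V)
    {X : Subgroup (SpecialLinearGroup K V)}
    (hX : ∀ g : SpecialLinearGroup K V, g ∈ X ↔ ∀ x y, h (g x) (g y) = h x y)
    {T : Type*} [Group T] {π : X →* T} (hπ : Function.Surjective π) (hk : π.ker = center X)
    (α : MulAut T) :
    ∃ (σ : K ≃+* K) (κ : K) (g : V ≃+ V), κ ≠ 0 ∧ (∀ (c : K) v, g (c • v) = σ c • g v) ∧
      (∀ u v, h (g u) (g v) = κ * σ (h u v)) ∧
      ∀ x y : X, (∀ v, g ((x : SpecialLinearGroup K V) v) = (y : SpecialLinearGroup K V) (g v)) →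
        α (π x) = π y := by
  obtain ⟨e, π', h1, h3, h4, h5⟩ := exists_model hX hπ hk.le
  obtain ⟨g, σ, κ, hg, hind⟩ := exists_ssim hθ hB hF hd h1 (model_center hk h3 h4) α
  refine ⟨σ, κ, g, hg.ne, hg.sl, hg.form, fun x y hxy => ?_⟩
  obtain ⟨x, rfl⟩ := e.surjective x
  obtain ⟨y, rfl⟩ := e.surjective y
  rw [← h4, ← h4]
  refine hind x y fun v => ?_
  have h6 := hxy v
  rwa [h5, h5] at h6

/-- **Conjugation in an overgroup.** -/
theorem ssim_conj (hF : 3 < Nat.card (FF θ)) (hd : 2 < finrank K V)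
    {X : Subgroup (SpecialLinearGroup K V)}
    (hX : ∀ g : SpecialLinearGroup K V, g ∈ X ↔ ∀ x y, h (g x) (g y) = h x y)
    {G : Type*} [Group G] {L : Subgroup G} {π : X →* L} (hπ : Function.Surjective π)
    (hk : π.ker ≤ center X) {r : G} (hr : r ∈ normalizer (L : Set G)) :
    ∃ (σ : K ≃+* K) (κ : K) (g : V ≃+ V), κ ≠ 0 ∧ (∀ (c : K) v, g (c • v) = σ c • g v) ∧
      (∀ u v, h (g u) (g v) = κ * σ (h u v)) ∧
      ∀ x y : X, (∀ v, g ((x : SpecialLinearGroup K V) v) = (y : SpecialLinearGroup K V) (g v)) →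
        r * (π x : G) * r⁻¹ = π y := by
  obtain ⟨σ, κ, g, h1, h3, h4, h5⟩ := ssim_of_aut hθ hB hF hd hX hπ hk
    (normalizerMonoidHom L ⟨r, hr⟩)
  refine ⟨σ, κ, g, h1, h3, h4, fun x y hxy => ?_⟩
  rw [← h5 x y hxy]
  rfl

/-- **`Out` of the quotients of `SU(V)` by central subgroups is solvable.** -/
theorem derived_le_conj (hF : 3 < Nat.card (FF θ)) (hd : 2 < finrank K V)
    {X : Subgroup (SpecialLinearGroup K V)}
    (hX : ∀ g : SpecialLinearGroup K V, g ∈ X ↔ ∀ x y, h (g x) (g y) = h x y)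
    {L : Type*} [Group L] {π : X →* L} (hπ : Function.Surjective π) (hk : π.ker ≤ center X) :
    derivedSeries (MulAut L) 2 ≤ (MulAut.conj : L →* MulAut L).range := by
  obtain ⟨e, π', h1, h3, h4, h5⟩ := exists_model hX hπ hk
  have hV : ∃ v : V, v ≠ 0 := by
    obtain ⟨o, ho0, ho⟩ := exists_iso_vec hθ hB (by omega)
    exact ⟨o, ho0⟩
  exact derived_le hθ hB (by omega) hV h1 (fun α => exists_ssim_L hθ hB hF hd h1 h3 α)

/-- **Automorphisms of order prime to `|Aut K|` and to the dimension are inner.** -/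
theorem inner_of_coprime_X (hF : 3 < Nat.card (FF θ))
    (hd : 2 < finrank K V) {X : Subgroup (SpecialLinearGroup K V)}
    (hX : ∀ g : SpecialLinearGroup K V, g ∈ X ↔ ∀ x y, h (g x) (g y) = h x y)
    {L : Type*} [Group L] {π : X →* L} (hπ : Function.Surjective π) (hk : π.ker ≤ center X)
    {α : MulAut L} {m : ℕ} (hc : m.Coprime (Nat.card (K ≃+* K)))
    (hcd : m.Coprime (finrank K V)) (hα : α ^ m = 1) :
    α ∈ (MulAut.conj : L →* MulAut L).range := by
  obtain ⟨e, π', h1, h3, h4, h5⟩ := exists_model hX hπ hk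
  exact inner_of_coprime hθ hB (by omega) hd h1 h3 (fun α => exists_ssim_L hθ hB hF hd h1 h3 α)
    hc hcd hα

/-- **The same for the simple group**, `2 < |F|`. -/
theorem derived_le_conj_T (hF : 2 < Nat.card (FF θ)) (hd : 2 < finrank K V)
    {X : Subgroup (SpecialLinearGroup K V)}
    (hX : ∀ g : SpecialLinearGroup K V, g ∈ X ↔ ∀ x y, h (g x) (g y) = h x y)
    {T : Type*} [Group T] {π : X →* T} (hπ : Function.Surjective π) (hk : π.ker = center X) :
    derivedSeries (MulAut T) 2 ≤ (MulAut.conj : T →* MulAut T).range := by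
  obtain ⟨e, π', h1, h3, h4, h5⟩ := exists_model hX hπ hk.le
  have hV : ∃ v : V, v ≠ 0 := by
    obtain ⟨o, ho0, ho⟩ := exists_iso_vec hθ hB (by omega)
    exact ⟨o, ho0⟩
  exact derived_le hθ hB (by omega) hV h1 (fun α => exists_ssim hθ hB hF hd h1 (model_center hk h3 h4) α)

/-- **Automorphisms of order prime to `|Aut K|` and to the dimension of the simple group are
inner.** -/
theorem inner_of_coprime_T (hF : 2 < Nat.card (FF θ)) (hd : 2 < finrank K V)
    {X : Subgroup (SpecialLinearGroup K V)}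
    (hX : ∀ g : SpecialLinearGroup K V, g ∈ X ↔ ∀ x y, h (g x) (g y) = h x y)
    {T : Type*} [Group T] {π : X →* T} (hπ : Function.Surjective π) (hk : π.ker = center X)
    {α : MulAut T} {m : ℕ} (hc : m.Coprime (Nat.card (K ≃+* K)))
    (hcd : m.Coprime (finrank K V)) (hα : α ^ m = 1) :
    α ∈ (MulAut.conj : T →* MulAut T).range := by
  obtain ⟨e, π', h1, h3, h4, h5⟩ := exists_model hX hπ hk.le
  exact inner_of_coprime hθ hB (by omega) hd h1 h3
    (fun α => exists_ssim hθ hB hF hd h1 (model_center hk h3 h4) α) hc hcd hα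

end Pairs

end Vale.Agent.P180.R2.H589.Ux
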