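import Vale.Agent.P180.R2.H589.Ux.Au2
import Vale.Agent.P180.R2.H589.Un.Au4

/-!
P180: automorphisms of `PSU(V)`, any characteristic: additive maps which preserve the commutator
form up to a bijection are semilinear similitudes.
-/

set_option linter.all false

namespace Vale.Agent.P180.R2.H589.Ux

open Subgroup Module
open Vale.Agent.P180.R2.H589.Sch
open Vale.Agent.P180.R2.H589.Un

section Sim

variable {K W : Type*} [Field K] [Finite K] [AddCommGroup W] [Module K W] {θ : K ≃+* K}
  {h : W → W → K} (hθ : Iv θ) (hB : Hm θ h) {s : W ≃+ W}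
  {τ : Z0 θ →+ Z0 θ} (hτ : Function.Injective τ)
  (hom : ∀ y y', τ (cm hθ hB y y') = cm hθ hB (s y) (s y'))

include hτ hom in
/-- **The similitude factor.** -/
theorem exists_factor (hW : ∃ x : W, x ≠ 0) {σ : K ≃+* K}
    (hs : ∀ (c : K) y, s (c • y) = σ c • s y) :
    ∃ κ : K, κ ≠ 0 ∧ θ κ = κ ∧ (∀ y y', h (s y) (s y') = κ * σ (h y y')) ∧
      ∀ z : Z0 θ, (τ z : K) = κ * σ z := by
  obtain ⟨ep, h2⟩ := exists_tr_one hθ
  have hσθ : ∀ c, θ (σ c) = σ (θ c) := fun c => Sp.ringEquiv_comm θ σ c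
  obtain ⟨d, hd0, hd⟩ := exists_dl hθ
  obtain ⟨δ, hδ⟩ : ∃ δ : Z0 θ, (δ : K) = d := ⟨⟨d, by rw [mem_Z0, hd, add_neg_cancel]⟩, rfl⟩
  have hτδ : (τ δ : K) ≠ 0 := by
    intro h0
    have h3 : τ δ = τ 0 := by
      rw [map_zero]
      exact Subtype.ext h0
    rw [hτ h3] at hδ
    exact hd0 hδ.symm
  have hσd : σ d ≠ 0 := (map_ne_zero σ).mpr hd0
  -- the basic relation
  have e1 : ∀ (y y' : W) (c : K) (z : Z0 θ), (z : K) = c * h y y' - θ (c * h y y') →
      (τ z : K) = σ c * h (s y) (s y') - θ (σ c * h (s y) (s y')) := by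
    intro y y' c z hz
    have h3 : z = cm hθ hB (c • y) y' := by
      apply Subtype.ext
      rw [cm_val, hB.herm (c • y) y', hB.sml, hz]
    rw [h3, hom, cm_val, hs, hB.herm (σ c • s y) (s y'), hB.sml]
  -- nonorthogonal pairs
  have e2 : ∀ y y' : W, h y y' ≠ 0 → ∃ ρ : K, θ ρ = ρ ∧ h (s y) (s y') = ρ * σ (h y y') ∧
      ∀ z : Z0 θ, (τ z : K) = ρ * σ z := by
    intro y y' hx
    have hσx : σ (h y y') ≠ 0 := (map_ne_zero σ).mpr hx
    obtain ⟨ρ, hρ⟩ : ∃ ρ, ρ = h (s y) (s y') / σ (h y y') := ⟨_, rfl⟩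
    have hX : h (s y) (s y') = ρ * σ (h y y') := by
      rw [hρ, div_mul_cancel₀ _ hσx]
    have h3 : ∀ (e : K) (z : Z0 θ), (z : K) = e - θ e →
        (τ z : K) = σ e * ρ - θ (σ e * ρ) := by
      intro e z hz
      have h4 := e1 y y' (e / h y y') z (by rw [div_mul_cancel₀ _ hx, hz])
      have h5 : σ (e / h y y') * h (s y) (s y') = σ e * ρ := by
        rw [map_div₀, hX]
        field_simp
      rw [h5] at h4
      exact h4
    have hρθ : θ ρ = ρ := by
      have h4 := h3 1 0 (by rw [map_one, sub_self]; rfl)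
      rw [map_zero, map_one, one_mul] at h4
      change (0 : K) = _ at h4
      exact (sub_eq_zero.mp h4.symm).symm
    refine ⟨ρ, hρθ, hX, fun z => ?_⟩
    have h4 := h3 (ep * z) z (by
      rw [map_mul, Z0_neg]
      linear_combination - (z : K) * h2)
    have h5 : σ ep + σ (θ ep) = 1 := by rw [← map_add, h2, map_one]
    rw [h4, map_mul, map_mul, map_mul, hρθ, hσθ, hσθ, Z0_neg, map_neg]
    linear_combination (σ (z : K) * ρ) * h5
  obtain ⟨κ, hκ⟩ : ∃ κ, κ = (τ δ : K) / σ d := ⟨_, rfl⟩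
  have hκ0 : κ ≠ 0 := by rw [hκ]; exact div_ne_zero hτδ hσd
  have e3 : ∀ ρ : K, (∀ z : Z0 θ, (τ z : K) = ρ * σ z) → ρ = κ := by
    intro ρ hρ
    rw [hκ, hρ δ, hδ, mul_div_assoc, div_self hσd, mul_one]
  obtain ⟨x, hx⟩ := hW
  obtain ⟨x', hx'⟩ := hB.exists_ne hx
  obtain ⟨ρ, h3, -, h5⟩ := e2 x x' hx'
  have h6 := e3 ρ h5
  subst h6
  refine ⟨ρ, hκ0, h3, fun y y' => ?_, h5⟩
  by_cases hxx : h y y' = 0
  · have h7 : ∀ c : K, σ c * h (s y) (s y') - θ (σ c * h (s y) (s y')) = 0 := by
      intro c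
      have h8 := e1 y y' c 0 (by rw [hxx, mul_zero, map_zero, sub_self]; rfl)
      rw [map_zero] at h8
      exact h8.symm
    obtain ⟨c, hc⟩ := hθ.2
    have h8 := h7 1
    have h9 := h7 c
    rw [map_one, one_mul] at h8
    rw [map_mul, hσθ] at h9
    have h10 : (σ c - σ (θ c)) * h (s y) (s y') = 0 := by
      linear_combination h9 - σ (θ c) * h8
    rw [hxx, map_zero, mul_zero]
    refine (mul_eq_zero.mp h10).resolve_left (sub_ne_zero.mpr fun h11 => hc ?_)
    exact (σ.injective h11).symm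
  · obtain ⟨ρ', h7, h8, h9⟩ := e2 y y' hxx
    rw [h8, e3 ρ' h9]

include hθ in
omit [Finite K] in
/-- norm one elements which are not fixed -/
theorem exists_norm_ne [Finite K] (hF : 1 < Nat.card (FF θ)) : ∃ u : K, u * θ u = 1 ∧ θ u ≠ u := by
  by_contra hcon
  push Not at hcon
  have h1 := card_nm_one hθ
  have h3 : (nmU hθ).ker ≤ rootsOfUnity 2 K := by
    intro u hu
    rw [mem_rootsOfUnity]
    apply Units.ext
    rw [Units.val_pow_eq_pow_val, Units.val_one]
    have h4 := (mem_ker_nmU hθ).mp hu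
    have h5 := hcon u h4
    rw [h5] at h4
    rw [sq]
    exact h4
  have h4 : Nat.card (nmU hθ).ker ≤ Nat.card (rootsOfUnity 2 K) :=
    Nat.card_le_card_of_injective _ (Subgroup.inclusion_injective h3)
  have h5 : Nat.card (rootsOfUnity 2 K) ≤ 2 := card_rootsOfUnity K 2
  omega

variable (hl : ∀ y, y ≠ 0 → h y y = 0 → h (s y) (s y) = 0 ∧ ∀ k : K, ∃ k' : K,
  s (k • y) = k' • s y)
  (hT : ∀ y, y ≠ 0 → h y y = 0 → ∀ κ : K, κ ≠ 0 → (θ κ = κ ∨ κ * θ κ = 1) →
    ∃ m : W →ₗ[K] W, ∀ k : K, s (κ • k • y) = m (s (k • y)))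

include hl hT hθ hB in
/-- **Semilinearity** for spaces with isotropic vectors. -/
theorem exists_sigma (hi : ∃ e : W, e ≠ 0 ∧ h e e = 0) :
    ∃ σ : K ≃+* K, ∀ (c : K) y, s (c • y) = σ c • s y := by
  have hs0 : ∀ {x}, s x = 0 → x = 0 := fun {x} hx => s.map_eq_zero_iff.mp hx
  obtain ⟨d, hd0, hd⟩ := exists_dl hθ
  obtain ⟨e, he0, he⟩ := hi
  obtain ⟨f, hf, hef⟩ := exists_pair hθ hB he0 he
  have hfe : h f e = 1 := by rw [hB.herm e f, hef, map_one]
  choose S hS using (hl e he0 he).2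
  have hse : s e ≠ 0 := fun h0 => he0 (hs0 h0)
  have hSinj : Function.Injective S := by
    intro a b hab
    have h3 : s (a • e) = s (b • e) := by rw [hS, hS, hab]
    exact smul_left_injective K he0 (s.injective h3)
  have hS1 : S 1 = 1 := by
    have h3 := hS 1
    rw [one_smul] at h3
    have h4 : (S 1 - 1) • s e = 0 := by rw [sub_smul, ← h3, one_smul, sub_self]
    exact sub_eq_zero.mp ((smul_eq_zero.mp h4).resolve_right hse)
  have hSadd : ∀ a b, S (a + b) = S a + S b := by
    intro a b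
    apply smul_left_injective K hse
    change S (a + b) • s e = (S a + S b) • s e
    rw [← hS, add_smul, map_add, hS, hS, add_smul]
  have hS0 : S 0 = 0 := by
    have := hSadd 0 0
    rw [add_zero] at this
    exact add_eq_left.mp this.symm
  have hSneg : ∀ a, S (-a) = - S a := by
    intro a
    have h3 := hSadd (-a) a
    rw [neg_add_cancel, hS0] at h3
    exact eq_neg_of_add_eq_zero_left h3.symm
  -- multiplicativity
  let A : Subring K :=
    { carrier := {c | ∀ k, S (c * k) = S c * S k}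
      zero_mem' := fun k => by rw [zero_mul, hS0, zero_mul]
      one_mem' := fun k => by rw [one_mul, hS1, one_mul]
      add_mem' := fun {a b} ha hb k => by rw [add_mul, hSadd, ha, hb, hSadd, add_mul]
      mul_mem' := fun {a b} ha hb k => by rw [mul_assoc, ha, hb, ha, mul_assoc]
      neg_mem' := fun {a} ha k => by rw [neg_mul, hSneg, ha, hSneg, neg_mul] }
  have hA : ∀ c, c ∈ A ↔ ∀ k, S (c * k) = S c * S k := fun c => Iff.rfl
  have hκ : ∀ κ : K, κ ≠ 0 → (θ κ = κ ∨ κ * θ κ = 1) → κ ∈ A := by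
    intro κ h0 h1
    obtain ⟨m, hm⟩ := hT e he0 he κ h0 h1
    have h3 : ∀ k, S (κ * k) • s e = S k • m (s e) := by
      intro k
      have h4 := hm k
      rwa [smul_smul, hS, hS, map_smul] at h4
    have h4 := h3 1
    rw [mul_one, hS1, one_smul] at h4
    rw [hA]
    intro k
    apply smul_left_injective K hse
    change S (κ * k) • s e = (S κ * S k) • s e
    rw [h3, ← h4, smul_smul, mul_comm]
  have hAtop : ∀ c, c ∈ A := by
    intro c
    obtain ⟨u, hu1, hu2⟩ := exists_norm_ne hθ (Finite.one_lt_card (α := FF θ))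
    have hu0 : u ≠ 0 := by
      rintro rfl
      rw [zero_mul] at hu1
      exact zero_ne_one hu1
    refine mem_of_gen hθ (fun c hc => ?_) (hκ u hu0 (Or.inr hu1)) hu2 c
    by_cases hc0 : c = 0
    · rw [hc0]
      exact A.zero_mem
    · exact hκ c hc0 (Or.inl hc)
  have hmul : ∀ a c : K, S (a * c) = S a * S c := fun a c => hAtop a c
  let σ' : K →+* K :=
    { toFun := S
      map_one' := hS1
      map_mul' := hmul
      map_zero' := hS0
      map_add' := hSadd }
  let σ : K ≃+* K := RingEquiv.ofBijective σ' (Finite.injective_iff_bijective.mp σ'.injective)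
  refine ⟨σ, ?_⟩
  change ∀ (c : K) y, s (c • y) = S c • s y
  -- multiples
  have hcl : ∀ (k : K) (y : W), (∀ c : K, s (c • y) = S c • s y) →
      ∀ c : K, s (c • (k • y)) = S c • s (k • y) := by
    intro k y hy c
    rw [smul_smul, hy, hy, smul_smul, hmul]
  -- isotropic vectors
  have hiso : ∀ y : W, h y y = 0 → ∀ c : K, s (c • y) = S c • s y := by
    intro y hy
    by_cases hy0 : y = 0
    · intro c
      rw [hy0, smul_zero, map_zero, smul_zero]
    by_cases h11 : h e y = 0
    · by_cases hk : ∃ k : K, y = k • e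
      · obtain ⟨k, rfl⟩ := hk
        exact hcl k e hS
      · push Not at hk
        choose S' hS' using (hl y hy0 hy).2
        have h3 : S = S' := line_cmp hB hl he0 he hy
          (by rw [h11, hB.swap h11, add_zero]) hk hS hS'
        rw [h3]
        exact hS'
    · choose S' hS' using (hl y hy0 hy).2
      have hk0 : d / h e y ≠ 0 := div_ne_zero hd0 h11
      have h4 : h ((d / h e y) • e) y = d := by
        rw [hB.sml, div_mul_cancel₀ _ h11]
      have h5 : h y ((d / h e y) • e) = -d := by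
        rw [hB.herm ((d / h e y) • e) y, h4, hd]
      have h3 : S = S' := line_cmp hB hl (smul_ne_zero hk0 he0) (smul_iso hB he _) hy
        (by rw [h4, h5]; ring) (by
          intro k hk
          apply h11
          rw [hk, hB.smr, hB.smr, he, mul_zero, mul_zero]) (hcl _ e hS) hS'
      rw [h3]
      exact hS'
  let U : Submodule K W :=
    { carrier := {y | ∀ c : K, s (c • y) = S c • s y}
      zero_mem' := fun c => by rw [smul_zero, map_zero, smul_zero]
      add_mem' := fun {x y} hx hy c => by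
        rw [smul_add, map_add, map_add, hx, hy, smul_add]
      smul_mem' := fun k y hy => hcl k y hy }
  have hU : ∀ y, h y y = 0 → y ∈ U := hiso
  suffices hh : ∀ w, w ∈ U from fun c y => hh y c
  intro w
  obtain ⟨x, hx⟩ : ∃ x, x = w - h w f • e - h w e • f := ⟨_, rfl⟩
  have hxe : h x e = 0 := by
    rw [hx, hB.subl, hB.subl, hB.sml, hB.sml, he, hfe]
    ring
  have hxf : h x f = 0 := by
    rw [hx, hB.subl, hB.subl, hB.sml, hB.sml, hf, hef]
    ring
  obtain ⟨c, hc⟩ := exists_cond hB hθ x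
  have h3 : h (c • e + x + f) (c • e + x + f) = 0 := by
    simp only [hB.addl, hB.addr, hB.sml, hB.smr, he, hf, hef, hfe, hxe, hxf, hB.swap hxe,
      hB.swap hxf]
    linear_combination hc
  have h4 := U.sub_mem (U.sub_mem (hU _ h3) (U.smul_mem c (hU e he))) (hU f hf)
  have h5 : c • e + x + f - c • e - f = x := by abel
  rw [h5] at h4
  have h6 := U.add_mem (U.add_mem h4 (U.smul_mem (h w f) (hU e he)))
    (U.smul_mem (h w e) (hU f hf))
  have h7 : x + h w f • e + h w e • f = w := by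
    rw [hx]
    abel
  rwa [h7] at h6

end Sim

end Vale.Agent.P180.R2.H589.Ux
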