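import Vale.Agent.P180.R2.H589.Ux.Au3
import Vale.Agent.P180.R2.H589.Ux.Au4

/-!
P180: automorphisms of `PSU(V)`, any characteristic: the action on the radical.
-/

set_option linter.all false

namespace Vale.Agent.P180.R2.H589.Ux

open Subgroup Module
open Vale.Agent.P180.R2.H589.Sch
open Vale.Agent.P180.R2.H589.Un
open Vale.Agent.P180.R2.H589.Sp (oo oo_ne finite_gl)

variable {K W : Type*} [Field K] [Finite K] [AddCommGroup W] [Module K W] {θ : K ≃+* K}
  {h : W → W → K} (hθ : Iv θ) (hB : Hm θ h) {ep : K} (h2 : ep + θ ep = 1)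
  {T : Type*} [Group T] {π : SUG (hyp θ h) →* T}
  (p : ℕ) [hp : Fact p.Prime] [CharP K p] [Finite W] (hF : 2 < Nat.card (FF θ))
  (hW : ∃ x : W, x ≠ 0) (hker : π.ker = center (SUG (hyp θ h))) (hπ : Function.Surjective π)

section Levi

theorem lv_o' (m : W ≃ₗ[K] W) (l : Kˣ) :
    lv θ m l (o' K W) = (θ (l : K))⁻¹ • o' K W := by
  rw [lv_apply]
  refine Prod.ext ?_ (Prod.ext ?_ ?_)
  · change (l : K) * 0 = (θ (l : K))⁻¹ * 0
    rw [mul_zero, mul_zero]
  · change m 0 = (θ (l : K))⁻¹ • (0 : W)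
    rw [map_zero, smul_zero]
  · rfl

include hp hker hπ hθ hB h2 in
/-- Levi elements are mapped to Levi elements. -/
theorem levi_img {β : MulAut T} (ht1 : ∀ x, β x ∈ XT π (oo K W) ↔ x ∈ XT π (oo K W))
    (ht2 : ∀ x, β x ∈ XT π (o' K W) ↔ x ∈ XT π (o' K W)) {a : SUG (hyp θ h)} {m : W ≃ₗ[K] W}
    {l : Kˣ} (ha : (a : (K × W × K) ≃ₗ[K] (K × W × K)) = lv θ m l) :
    ∃ (b : SUG (hyp θ h)) (m' : W ≃ₗ[K] W) (l' : Kˣ), m' ∈ UG h ∧
      (b : (K × W × K) ≃ₗ[K] (K × W × K)) = lv θ m' l' ∧ β (π a) = π b := by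
  have hV := hyp_hm hθ hB
  have hkp := hkp' p hker hθ hB
  obtain ⟨b, hb⟩ := hπ (β (π a))
  have hb1 : ∀ (v : K × W × K) (k : K), k ≠ 0 → (∀ x, β x ∈ XT π v ↔ x ∈ XT π v) →
      (a : (K × W × K) ≃ₗ[K] (K × W × K)) v = k • v →
      ∀ x ∈ XT π v, π b * x * (π b)⁻¹ ∈ XT π v := by
    intro v k hk hv hav x hx
    obtain ⟨x, rfl⟩ := β.surjective x
    rw [hb, ← map_inv, ← map_mul, ← map_mul, hv]
    have h3 := XT_conj π a v ((hv x).mp hx)
    rwa [hav, XT_smul π hV hk] at h3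
  obtain ⟨k, hk⟩ := line_of_norm p hV hθ hker.le hkp oo_ne (oo_iso hB)
    (hb1 _ (l : K) l.ne_zero ht1 (by rw [ha, lv_oo]))
  obtain ⟨k', hk'⟩ := line_of_norm p hV hθ hker.le hkp o'_ne (o'_iso hθ hB)
    (hb1 _ _ (inv_ne_zero ((map_ne_zero θ).mpr l.ne_zero)) ht2 (by rw [ha, lv_o']))
  obtain ⟨b₀, m', l', y₀, z₀, hm', -, hb₀, hbd⟩ := decomp hθ hB h2 hk
  have hb2 : rG hθ hB h2 y₀ z₀ = 1 := by
    rw [hbd, Subgroup.coe_mul, LinearEquiv.mul_apply, rG_o', hb₀, lv_apply] at hk'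
    have h3 := congrArg Prod.fst hk'
    have h4 := congrArg (fun u : K × W × K => u.2.1) hk'
    change (l' : K) * ((z₀ : K) - ep * h y₀ y₀) = k' * 0 at h3
    change m' y₀ = k' • (0 : W) at h4
    rw [mul_zero] at h3
    rw [smul_zero] at h4
    have h5 : y₀ = 0 := m'.map_eq_zero_iff.mp h4
    have h6 := (mul_eq_zero.mp h3).resolve_left l'.ne_zero
    rw [h5, hB.zl, mul_zero, sub_zero] at h6
    have h7 : z₀ = 0 := Subtype.ext h6
    rw [h5, h7, rG_zero]
  rw [hb2, mul_one] at hbd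
  exact ⟨b, m', l', hm', by rw [hbd, hb₀], hb.symm⟩

end Levi

section Maps

include hp hker hπ hF hW

/-- **Automorphisms which stabilise the first transvection groups** act on the radical. -/
theorem exists_maps {β : MulAut T} (ht1 : ∀ x, β x ∈ XT π (oo K W) ↔ x ∈ XT π (oo K W)) :
    ∃ (s : W ≃+ W) (τ : Z0 θ →+ Z0 θ) (ν : W → Z0 θ), Function.Injective τ ∧
      (∀ y z, β (π (rG hθ hB h2 y z)) = π (rG hθ hB h2 (s y) (ν y + τ z))) ∧
      (∀ y y', ν (y + y') + τ (om hθ hB ep y y') = ν y + ν y' + om hθ hB ep (s y) (s y')) ∧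
      ∀ y y', τ (cm hθ hB y y') = cm hθ hB (s y) (s y') := by
  have hV := hyp_hm hθ hB
  have hinj : ∀ {y y' : W} {z z' : Z0 θ}, π (rG hθ hB h2 y z) = π (rG hθ hB h2 y' z') →
      y = y' ∧ z = z' := fun he => pir_inj hθ hB h2 p hker he
  have hR : ∀ x ∈ RT hθ hB h2 π, β x ∈ RT hθ hB h2 π := fun x hx =>
    map_RT_le hθ hB h2 p hF hW hker hπ ht1 hx
  choose s ν hsν using fun y : W => hR _ (rG_mem_RT hθ hB h2 π y 0)
  have hX : ∀ z : Z0 θ, ∃ e : Z0 θ, β (π (rG hθ hB h2 0 z)) = π (rG hθ hB h2 0 e) := by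
    intro z
    have h3 : β (π (rG hθ hB h2 0 z)) ∈ XT π (oo K W) := by
      rw [ht1]
      exact (mem_XT_oo hθ hB h2 π).mpr ⟨z, rfl⟩
    exact (mem_XT_oo hθ hB h2 π).mp h3
  choose τ hτ using hX
  have e1 : ∀ y z, β (π (rG hθ hB h2 y z)) = π (rG hθ hB h2 (s y) (ν y + τ z)) := by
    intro y z
    rw [rG_add, map_mul, map_mul, hsν, hτ, ← map_mul, rG_mul, om_zr, add_zero, add_zero]
  -- multiplicativity
  have e2 : ∀ y y' z z', s (y + y') = s y + s y' ∧
      ν (y + y') + τ (z + z' + om hθ hB ep y y') =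
        (ν y + τ z) + (ν y' + τ z') + om hθ hB ep (s y) (s y') := by
    intro y y' z z'
    have h3 : β (π (rG hθ hB h2 y z * rG hθ hB h2 y' z')) = π (rG hθ hB h2 (s y) (ν y + τ z) *
        rG hθ hB h2 (s y') (ν y' + τ z')) := by
      rw [map_mul, map_mul, e1, e1, map_mul]
    rw [rG_mul, rG_mul, e1] at h3
    exact hinj h3
  have hsadd : ∀ y y', s (y + y') = s y + s y' := fun y y' => (e2 y y' 0 0).1
  have hs0 : s 0 = 0 := by
    have := hsadd 0 0
    rw [add_zero] at this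
    exact add_eq_left.mp this.symm
  have hτadd : ∀ z z', τ (z + z') = τ z + τ z' := by
    intro z z'
    have h3 : β (π (rG hθ hB h2 0 z * rG hθ hB h2 0 z')) =
        π (rG hθ hB h2 0 (τ z) * rG hθ hB h2 0 (τ z')) := by
      rw [map_mul, map_mul, hτ, hτ, map_mul]
    rw [rG_mul, rG_mul, om_zr, add_zero, add_zero, add_zero, hτ] at h3
    exact (hinj h3).2
  have hτ0 : τ 0 = 0 := by
    have := hτadd 0 0
    rw [add_zero] at this
    exact add_eq_left.mp this.symm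
  have hτneg : ∀ z, τ (-z) = - τ z := by
    intro z
    have h3 := hτadd (-z) z
    rw [neg_add_cancel, hτ0] at h3
    exact eq_neg_of_add_eq_zero_left h3.symm
  have hτinj : Function.Injective τ := by
    intro c d he
    have h3 : β (π (rG hθ hB h2 0 c)) = β (π (rG hθ hB h2 0 d)) := by rw [hτ, hτ, he]
    exact (hinj (β.injective h3)).2
  have hν : ∀ y y', ν (y + y') + τ (om hθ hB ep y y') =
      ν y + ν y' + om hθ hB ep (s y) (s y') := by
    intro y y'
    have h3 := (e2 y y' 0 0).2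
    rwa [zero_add, zero_add, hτ0, add_zero, add_zero] at h3
  have hcm : ∀ y y', cm hθ hB y y' = om hθ hB ep y y' + -om hθ hB ep y' y := by
    intro y y'
    apply Subtype.ext
    rw [AddSubgroup.coe_add, AddSubgroup.coe_neg, om_val, om_val, cm_val]
    linear_combination (h y' y - h y y') * h2
  have hform : ∀ y y', τ (cm hθ hB y y') = cm hθ hB (s y) (s y') := by
    intro y y'
    have h3 := hν y y'
    have h4 := hν y' y
    rw [add_comm y' y, add_comm (ν y') (ν y)] at h4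
    have h5 : τ (om hθ hB ep y y') - om hθ hB ep (s y) (s y') =
        τ (om hθ hB ep y' y) - om hθ hB ep (s y') (s y) := by
      have h6 : τ (om hθ hB ep y y') - om hθ hB ep (s y) (s y') = ν y + ν y' - ν (y + y') := by
        rw [sub_eq_sub_iff_add_eq_add, add_comm, h3]
      have h7 : τ (om hθ hB ep y' y) - om hθ hB ep (s y') (s y) = ν y + ν y' - ν (y + y') := by
        rw [sub_eq_sub_iff_add_eq_add, add_comm, h4]
      rw [h6, h7]
    rw [hcm, hcm, hτadd, hτneg, ← sub_eq_add_neg, ← sub_eq_add_neg, sub_eq_sub_iff_sub_eq_sub]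
    exact h5
  have hsker : ∀ y, s y = 0 → y = 0 := by
    intro y hy
    have h3 : β (π (rG hθ hB h2 y 0)) ∈ XT π (oo K W) := by
      rw [e1, hy]
      exact (mem_XT_oo hθ hB h2 π).mpr ⟨_, rfl⟩
    rw [ht1] at h3
    obtain ⟨c, hc⟩ := (mem_XT_oo hθ hB h2 π).mp h3
    exact (hinj hc).1
  let s' : W →+ W := { toFun := s, map_zero' := hs0, map_add' := hsadd }
  have hsinj : Function.Injective s' := (injective_iff_map_eq_zero s').mpr hsker
  have hsbij : Function.Bijective s' := Finite.injective_iff_bijective.mp hsinj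
  let S : W ≃+ W := AddEquiv.ofBijective s' hsbij
  let τ' : Z0 θ →+ Z0 θ := { toFun := τ, map_zero' := hτ0, map_add' := hτadd }
  exact ⟨S, τ', ν, hτinj, e1, hν, hform⟩

omit hF hW in
include h2 in
/-- the relations given by Levi elements -/
theorem levi_rel {β : MulAut T} (ht1 : ∀ x, β x ∈ XT π (oo K W) ↔ x ∈ XT π (oo K W))
    (ht2 : ∀ x, β x ∈ XT π (o' K W) ↔ x ∈ XT π (o' K W)) {s : W ≃+ W} {τ : Z0 θ →+ Z0 θ}
    {ν : W → Z0 θ}
    (hmap : ∀ y z, β (π (rG hθ hB h2 y z)) = π (rG hθ hB h2 (s y) (ν y + τ z)))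
    {a : SUG (hyp θ h)} {m : W ≃ₗ[K] W} {l : Kˣ} (hm : m ∈ UG h)
    (ha : (a : (K × W × K) ≃ₗ[K] (K × W × K)) = lv θ m l) :
    ∃ (b : SUG (hyp θ h)) (m' : W ≃ₗ[K] W) (l' : Kˣ), m' ∈ UG h ∧
      (b : (K × W × K) ≃ₗ[K] (K × W × K)) = lv θ m' l' ∧ β (π a) = π b ∧
      ∀ y z, s (θ (l : K) • m y) = θ (l' : K) • m' (s y) ∧
        ν (θ (l : K) • m y) + τ (nz hθ l z) = nz hθ l' (ν y + τ z) := by
  obtain ⟨b, m', l', hm', hb, hab⟩ := levi_img hθ hB h2 p hker hπ ht1 ht2 ha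
  refine ⟨b, m', l', hm', hb, hab, fun y z => ?_⟩
  have h3 : β (π (a * rG hθ hB h2 y z * a⁻¹)) =
      π (b * rG hθ hB h2 (s y) (ν y + τ z) * b⁻¹) := by
    rw [map_mul, map_mul, map_inv, map_mul, map_mul, map_inv, hab, hmap, map_mul, map_mul,
      map_inv]
  rw [lG_rG hθ hB h2 hm ha, hmap, lG_rG hθ hB h2 hm' hb] at h3
  exact pir_inj hθ hB h2 p hker h3

end Maps

section Iso

include hp hker hπ h2

omit [Finite K] [Finite W] [CharP K p] hp hker hπ h2 hB in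
theorem tU_of_lv (hθ : Iv θ) (hB : Hm θ h) {y : W} (hy : h y y = 0) {c : K} (hc : c + θ c = 0)
    {t : SUG (hyp θ h)}
    (ht : IsU (hyp θ h) (t : (K × W × K) ≃ₗ[K] (K × W × K)) (0, y, 0) c) :
    (t : (K × W × K) ≃ₗ[K] (K × W × K)) = lv θ (tU hB hy c) 1 := by
  obtain ⟨hy', h1⟩ := lv_tU hB hθ hy c
  rw [h1]
  exact LinearEquiv.ext fun x => by rw [ht, tU_apply]

omit [Finite K] [Finite W] [CharP K p] hp hker hπ h2 in
/-- the coefficient of a transvection in the unitary group has trace zero -/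
theorem isU_tr {V : Type*} [AddCommGroup V] [Module K V] {h : V → V → K} (hB : Hm θ h)
    {g : V ≃ₗ[K] V} (hg : g ∈ UG h) {v : V} (hv0 : v ≠ 0) (hv : h v v = 0) {c : K}
    (hc : IsU h g v c) : c + θ c = 0 := by
  obtain ⟨y, hy⟩ := hB.exists_one hv0
  have h1 : h y v = 1 := by rw [hB.herm v y, hy, map_one]
  have h3 := mem_UG.mp hg y y
  rw [hc y, h1, mul_one] at h3
  simp only [hB.addl, hB.addr, hB.sml, hB.smr, hv, h1, hy] at h3
  linear_combination h3

/-- isotropic lines are mapped to isotropic lines -/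
theorem iso_line {β : MulAut T} (ht1 : ∀ x, β x ∈ XT π (oo K W) ↔ x ∈ XT π (oo K W))
    (ht2 : ∀ x, β x ∈ XT π (o' K W) ↔ x ∈ XT π (o' K W)) {s : W ≃+ W} {τ : Z0 θ →+ Z0 θ}
    {ν : W → Z0 θ}
    (hmap : ∀ y z, β (π (rG hθ hB h2 y z)) = π (rG hθ hB h2 (s y) (ν y + τ z))) {y : W} (hy0 : y ≠ 0)
    (hy : h y y = 0) : h (s y) (s y) = 0 ∧ ∀ k : K, ∃ k' : K, s (k • y) = k' • s y := by
  have hV := hyp_hm hθ hB
  have hkp := hkp' p hker hθ hB
  have hv0 : ((0, y, 0) : K × W × K) ≠ 0 := fun h0 =>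
    hy0 (congrArg (fun u : K × W × K => u.2.1) h0)
  have hvi : hyp θ h ((0, y, 0) : K × W × K) (0, y, 0) = 0 := by
    rw [hyp_apply]
    change (0 : K) * θ 0 + 0 * θ 0 + h y y = 0
    rw [hy]
    ring
  obtain ⟨w, hw0, hwi, hw⟩ := exists_img hθ hB hπ oo_ne (oo_iso hB) oo_ne (oo_iso hB) ht1
    hv0 hvi
  have hw1 : ∀ u : K × W × K, u ≠ 0 → hyp θ h u u = 0 → (∀ x, β x ∈ XT π u ↔ x ∈ XT π u) →
      hyp θ h ((0, y, 0) : K × W × K) u = 0 → hyp θ h w u = 0 := by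
    intro u hu0 hui hu hvu
    refine orth_of_XT p hV hθ hker.le hkp hwi hu0 hui fun x hx x' hx' => ?_
    obtain ⟨x, rfl⟩ := β.surjective x
    obtain ⟨x', rfl⟩ := β.surjective x'
    rw [← map_mul, ← map_mul, XT_comm π hV hvu ((hw x).mp hx) ((hu x').mp hx')]
  have hw2 : w.2.2 = 0 := by
    have h3 := hw1 _ oo_ne (oo_iso hB) ht1 (by rw [hyp_oo_r hB hθ])
    rwa [hyp_oo_r hB hθ] at h3
  have ho' : ∀ x : K × W × K, hyp θ h x (o' K W) = x.1 := by
    intro x
    rw [hyp_apply]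
    change x.1 * θ 1 + x.2.2 * θ 0 + h x.2.1 0 = x.1
    rw [hB.zr, map_one, map_zero]
    ring
  have hw3 : w.1 = 0 := by
    have h3 := hw1 _ o'_ne (o'_iso hθ hB) ht2 (by rw [ho'])
    rwa [ho'] at h3
  obtain ⟨y', rfl⟩ : ∃ y', w = (0, y', 0) := ⟨w.2.1, Prod.ext hw3 (Prod.ext rfl hw2)⟩
  have hy'0 : y' ≠ 0 := by
    rintro rfl
    exact hw0 rfl
  have hy'i : h y' y' = 0 := by
    rw [hyp_apply] at hwi
    change (0 : K) * θ 0 + 0 * θ 0 + h y' y' = 0 at hwi
    rwa [zero_mul, zero_add, zero_add] at hwi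
  obtain ⟨d, hd0, hd⟩ := exists_dl hθ
  have hdd : d + θ d = 0 := by rw [hd, add_neg_cancel]
  obtain ⟨t, ht⟩ := exists_isU hV hvi (c := d) hdd
  obtain ⟨t', c', ht', htt⟩ := (hw _).mpr (⟨t, d, ht, rfl⟩ : π t ∈ XT π _)
  have hc' := isU_tr hV t'.2.1 hw0 hwi ht'
  have hT := tU_of_lv hθ hB hy hdd ht
  have hT' := tU_of_lv hθ hB hy'i hc' ht'
  have h3 : ∀ x, s (tU hB hy d x) = tU hB hy'i c' (s x) := by
    intro x
    have h4 : β (π (t * rG hθ hB h2 x 0 * t⁻¹)) =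
        π (t' * rG hθ hB h2 (s x) (ν x + τ 0) * t'⁻¹) := by
      rw [map_mul, map_mul, map_inv, map_mul, map_mul, map_inv, htt, hmap, map_mul, map_mul,
        map_inv]
    rw [lG_rG hθ hB h2 (tU_mem hB hy hdd) hT, lG_rG hθ hB h2 (tU_mem hB hy'i hc') hT',
      hmap] at h4
    have h5 := (pir_inj hθ hB h2 p hker h4).1
    rwa [Units.val_one, map_one, one_smul, one_smul] at h5
  obtain ⟨x₀, hx₀⟩ := hB.exists_one hy0
  have hx₀' : h x₀ y = 1 := by rw [hB.herm y x₀, hx₀, map_one]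
  have h4 : ∀ k : K, ∃ k' : K, s (k • y) = k' • y' := by
    intro k
    have h5 := h3 ((k / d) • x₀)
    rw [tU_apply, tU_apply, hB.sml, hx₀', map_add, mul_one, mul_div_cancel₀ _ hd0] at h5
    exact ⟨_, add_left_cancel h5⟩
  obtain ⟨k₁, hk₁⟩ := h4 1
  rw [one_smul] at hk₁
  have hk₁0 : k₁ ≠ 0 := by
    rintro rfl
    rw [zero_smul] at hk₁
    exact hy0 (s.map_eq_zero_iff.mp hk₁)
  refine ⟨by rw [hk₁]; exact smul_iso hB hy'i _, fun k => ?_⟩
  obtain ⟨k', hk'⟩ := h4 k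
  refine ⟨k' * k₁⁻¹, ?_⟩
  rw [hk', hk₁, smul_smul, mul_assoc, inv_mul_cancel₀ hk₁0, mul_one]

include hF in
/-- the one-dimensional case -/
theorem sigma_one {β : MulAut T} (ht1 : ∀ x, β x ∈ XT π (oo K W) ↔ x ∈ XT π (oo K W))
    (ht2 : ∀ x, β x ∈ XT π (o' K W) ↔ x ∈ XT π (o' K W)) {s : W ≃+ W} {τ : Z0 θ →+ Z0 θ}
    {ν : W → Z0 θ}
    (hmap : ∀ y z, β (π (rG hθ hB h2 y z)) = π (rG hθ hB h2 (s y) (ν y + τ z)))
    (hd1 : finrank K W = 1) :
    ∃ σ : K ≃+* K, ∀ (c : K) y, s (c • y) = σ c • s y := by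
  haveI : Module.Finite K W := Module.Finite.of_finite
  -- the scalars
  let A : Subring K :=
    { carrier := {c | ∃ c' : K, ∀ y, s (c • y) = c' • s y}
      zero_mem' := ⟨0, fun y => by rw [zero_smul, zero_smul, map_zero]⟩
      one_mem' := ⟨1, fun y => by rw [one_smul, one_smul]⟩
      add_mem' := by
        rintro a b ⟨a', ha⟩ ⟨b', hb⟩
        exact ⟨a' + b', fun y => by rw [add_smul, map_add, ha, hb, add_smul]⟩
      mul_mem' := by
        rintro a b ⟨a', ha⟩ ⟨b', hb⟩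
        exact ⟨a' * b', fun y => by rw [mul_smul, ha, hb, mul_smul]⟩
      neg_mem' := by
        rintro a ⟨a', ha⟩
        exact ⟨-a', fun y => by rw [neg_smul, map_neg, ha, neg_smul]⟩ }
  have hA : ∀ c, c ∈ A ↔ ∃ c' : K, ∀ y, s (c • y) = c' • s y := fun c => Iff.rfl
  -- the torus
  have htor : ∀ l : Kˣ, θ (l : K) * (θ (l : K) / l) ∈ A := by
    intro l
    have hl0 := l.ne_zero
    have hlθ : θ (l : K) ≠ 0 := (map_ne_zero θ).mpr hl0
    have hq0 : θ (l : K) / l ≠ 0 := div_ne_zero hlθ hl0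
    obtain ⟨m, hm⟩ : ∃ m : W ≃ₗ[K] W, m = LinearEquiv.smulOfNeZero K W _ hq0 := ⟨_, rfl⟩
    have hmy : ∀ y, m y = (θ (l : K) / l) • y := fun y => by rw [hm]; rfl
    have hmU : m ∈ UG h := by
      intro x y
      rw [hmy, hmy, hB.sml, hB.smr, map_div₀, hθ.inv]
      field_simp
    have hmdet : ((LinearEquiv.det m : Kˣ) : K) = θ (l : K) / l := by
      obtain ⟨e, he0, he⟩ := finrank_eq_one_iff'.mp hd1
      have h3 := scalar_dim_one hd1 m e
      rw [hmy] at h3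
      have h4 : (θ (l : K) / l - ((LinearEquiv.det m : Kˣ) : K)) • e = 0 := by
        rw [sub_smul, h3, sub_self]
      exact (sub_eq_zero.mp ((smul_eq_zero.mp h4).resolve_right he0)).symm
    obtain ⟨a, ha⟩ : ∃ a : SUG (hyp θ h),
        (a : (K × W × K) ≃ₗ[K] (K × W × K)) = lv θ m l := by
      refine ⟨⟨lv θ m l, lv_mem hmU hθ _, ?_⟩, rfl⟩
      change LinearEquiv.det _ = 1
      rw [lv_det_val, hmdet]
      field_simp
    obtain ⟨b, m', l', hm', hb, hab⟩ := levi_img hθ hB h2 p hker hπ ht1 ht2 ha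
    rw [hA]
    refine ⟨θ (l' : K) * ((LinearEquiv.det m' : Kˣ) : K), fun y => ?_⟩
    have h3 : β (π (a * rG hθ hB h2 y 0 * a⁻¹)) =
        π (b * rG hθ hB h2 (s y) (ν y + τ 0) * b⁻¹) := by
      rw [map_mul, map_mul, map_inv, map_mul, map_mul, map_inv, hab, hmap, map_mul, map_mul,
        map_inv]
    rw [lG_rG hθ hB h2 hmU ha, lG_rG hθ hB h2 hm' hb, hmap] at h3
    have h5 := (pir_inj hθ hB h2 p hker h3).1
    rw [hmy, scalar_dim_one hd1 m', smul_smul, smul_smul] at h5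
    exact h5
  have hFA : ∀ c, θ c = c → c ∈ A := by
    intro c hc
    by_cases hc0 : c = 0
    · rw [hc0]
      exact A.zero_mem
    have h3 := htor (Units.mk0 c hc0)
    rw [Units.val_mk0, hc, div_self hc0, mul_one] at h3
    exact h3
  have hall : ∀ c, c ∈ A := by
    obtain ⟨u, hu1, hu3⟩ := exists_cube hθ hF
    obtain ⟨y, hy0, hy⟩ := hilbert90 hθ hu1
    -- `y / θ y = u`
    have h3 := htor (Units.mk0 y hy0)
    rw [Units.val_mk0] at h3
    refine mem_of_gen hθ hFA h3 ?_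
    intro h4
    apply hu3
    have hyθ : θ y ≠ 0 := (map_ne_zero θ).mpr hy0
    rw [map_mul, map_div₀, hθ.inv] at h4
    have h5 : y ^ 3 = θ y ^ 3 := by
      field_simp at h4
      linear_combination h4
    have h6 : u ^ 3 * θ y ^ 3 = θ y ^ 3 := by rw [← mul_pow, hy, h5]
    exact mul_right_cancel₀ (pow_ne_zero 3 hyθ) (by rw [one_mul]; exact h6)
  choose S hS using fun c => (hA c).mp (hall c)
  obtain ⟨e, he0, he⟩ := finrank_eq_one_iff'.mp hd1
  have hse : s e ≠ 0 := fun h0 => he0 (s.map_eq_zero_iff.mp h0)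
  let σ' : K →+* K :=
    { toFun := S
      map_one' := by
        apply smul_left_injective K hse
        change S 1 • s e = (1 : K) • s e
        rw [← hS, one_smul, one_smul]
      map_mul' := by
        intro a b
        apply smul_left_injective K hse
        change S (a * b) • s e = (S a * S b) • s e
        rw [← hS, mul_smul, hS, hS, mul_smul]
      map_zero' := by
        apply smul_left_injective K hse
        change S 0 • s e = (0 : K) • s e
        rw [← hS, zero_smul, zero_smul, map_zero]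
      map_add' := by
        intro a b
        apply smul_left_injective K hse
        change S (a + b) • s e = (S a + S b) • s e
        rw [← hS, add_smul, map_add, hS, hS, add_smul] }
  exact ⟨RingEquiv.ofBijective σ' (Finite.injective_iff_bijective.mp σ'.injective), hS⟩

end Iso

end Vale.Agent.P180.R2.H589.Ux
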