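import Vale.Agent.P180.R2.H589.Ux.Au5

/-!
P180: automorphisms of `PSU(V)`, any characteristic: elements of the torus.
-/

set_option linter.all false

namespace Vale.Agent.P180.R2.H589.Ux

open Subgroup Module
open Vale.Agent.P180.R2.H589.Sch
open Vale.Agent.P180.R2.H589.Un
open Vale.Agent.P180.R2.H589.Sp (oo oo_ne finite_gl cj cj_apply)

section Diag

variable {K V : Type*} [Field K] [AddCommGroup V] [Module K V] {θ : K ≃+* K} {h : V → V → K}
  (hθ : Iv θ) (hB : Hm θ h)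

include hθ hB in
/-- isometries with a given eigenvalue on an isotropic vector -/
theorem exists_diag [Module.Finite K V] {e : V} (he0 : e ≠ 0) (he : h e e = 0) (c : Kˣ) :
    ∃ m : V ≃ₗ[K] V, m ∈ UG h ∧ m e = (c : K) • e ∧
      ((LinearEquiv.det m : Kˣ) : K) = c * (θ (c : K))⁻¹ := by
  obtain ⟨f, hf, hef⟩ := exists_pair hθ hB he0 he
  obtain ⟨E, hE⟩ : ∃ E, E = splitE hB he hf hef := ⟨_, rfl⟩
  have hiso : ∀ x y, h (E x) (E y) = hyp θ (rs h (WW hB e f)) x y := by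
    rw [hE]
    exact splitE_iso hB he hf hef
  refine ⟨cj E (lv θ 1 c), (cj_mem_UG hiso).mpr (lv_mem (Subgroup.one_mem _) hθ c), ?_, ?_⟩
  · have h1 : e = E (1, 0, 0) := by
      rw [hE, splitE_apply, one_smul, zero_smul, add_zero]
      change e = e + ((0 : WW hB e f) : V)
      rw [Submodule.coe_zero, add_zero]
    have h3 : E.symm e = (1, 0, 0) := by
      rw [LinearEquiv.symm_apply_eq]
      exact h1
    have h4 : E ((c : K) • ((1, 0, 0) : K × WW hB e f × K)) = (c : K) • e := by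
      rw [map_smul, ← h1]
    rw [cj_apply, h3, lv_apply]
    refine (congrArg E ?_).trans h4
    refine Prod.ext rfl (Prod.ext ?_ ?_)
    · change (0 : WW hB e f) = (c : K) • (0 : WW hB e f)
      rw [smul_zero]
    · change (θ (c : K))⁻¹ * 0 = (c : K) * 0
      rw [mul_zero, mul_zero]
  · have h1 : LinearEquiv.det (cj E (lv θ 1 c)) =
        LinearEquiv.det (lv θ (1 : WW hB e f ≃ₗ[K] WW hB e f) c) := LinearEquiv.det_conj _ E
    rw [h1, lv_det, map_one, Units.val_one, mul_one]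

end Diag

variable {K W : Type*} [Field K] [Finite K] [AddCommGroup W] [Module K W] {θ : K ≃+* K}
  {h : W → W → K} (hθ : Iv θ) (hB : Hm θ h) {ep : K} (h2 : ep + θ ep = 1)
  {T : Type*} [Group T] {π : SUG (hyp θ h) →* T}
  (p : ℕ) [hp : Fact p.Prime] [CharP K p] [Finite W]
  (hker : π.ker = center (SUG (hyp θ h))) (hπ : Function.Surjective π)

include hp hker hπ hB h2 in
theorem exists_T {β : MulAut T} (ht1 : ∀ x, β x ∈ XT π (oo K W) ↔ x ∈ XT π (oo K W))
    (ht2 : ∀ x, β x ∈ XT π (o' K W) ↔ x ∈ XT π (o' K W)) {s : W ≃+ W} {τ : Z0 θ →+ Z0 θ}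
    {ν : W → Z0 θ}
    (hmap : ∀ y z, β (π (rG hθ hB h2 y z)) = π (rG hθ hB h2 (s y) (ν y + τ z)))
    {y : W} (hy0 : y ≠ 0) (hy : h y y = 0) {κ : K} (hκ0 : κ ≠ 0)
    (hκ : θ κ = κ ∨ κ * θ κ = 1) :
    ∃ m : W →ₗ[K] W, ∀ k : K, s (κ • k • y) = m (s (k • y)) := by
  haveI : Module.Finite K W := Module.Finite.of_finite
  rcases hκ with h1 | h1
  · obtain ⟨a, ha⟩ : ∃ a : SUG (hyp θ h),
        (a : (K × W × K) ≃ₗ[K] (K × W × K)) = lv θ 1 (Units.mk0 κ hκ0) := by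
      refine ⟨⟨lv θ 1 (Units.mk0 κ hκ0), lv_mem (Subgroup.one_mem _) hθ _, ?_⟩, rfl⟩
      change LinearEquiv.det _ = 1
      rw [lv_det_val, Units.val_mk0, h1, mul_inv_cancel₀ hκ0, map_one, Units.val_one, one_mul]
    obtain ⟨b, m', l', hm', hb, hab, hrel⟩ := levi_rel hθ hB h2 p hker hπ ht1 ht2 hmap
      (Subgroup.one_mem _) ha
    refine ⟨θ (l' : K) • (m' : W →ₗ[K] W), fun k => ?_⟩
    have h3 := (hrel (k • y) 0).1
    rw [Units.val_mk0, h1] at h3
    exact h3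
  · obtain ⟨c, hc0, hc⟩ := hilbert90 hθ h1
    have hθc : θ c ≠ 0 := (map_ne_zero θ).mpr hc0
    obtain ⟨m, hm, hmy, hmd⟩ := exists_diag hθ hB hy0 hy (Units.mk0 c hc0)
    rw [Units.val_mk0] at hmy hmd
    obtain ⟨a, ha⟩ : ∃ a : SUG (hyp θ h),
        (a : (K × W × K) ≃ₗ[K] (K × W × K)) = lv θ m (Units.mk0 c hc0)⁻¹ := by
      refine ⟨⟨lv θ m (Units.mk0 c hc0)⁻¹, lv_mem hm hθ _, ?_⟩, rfl⟩
      change LinearEquiv.det _ = 1
      rw [lv_det_val, Units.val_inv_eq_inv_val, Units.val_mk0, hmd, map_inv₀, inv_inv]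
      field_simp
    obtain ⟨b, m', l', hm', hb, hab, hrel⟩ := levi_rel hθ hB h2 p hker hπ ht1 ht2 hmap hm ha
    refine ⟨θ (l' : K) • (m' : W →ₗ[K] W), fun k => ?_⟩
    have h3 := (hrel (k • y) 0).1
    have h5 : m (k • y) = k • c • y := by rw [map_smul, hmy]
    rw [Units.val_inv_eq_inv_val, Units.val_mk0, h5, map_inv₀] at h3
    have h4 : (θ c)⁻¹ • k • c • y = κ • k • y := by
      rw [smul_smul, smul_smul, smul_smul]
      congr 1
      have h6 : κ = c * (θ c)⁻¹ := by rw [eq_mul_inv_iff_mul_eq₀ hθc, hc]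
      rw [h6]
      ring
    rw [h4] at h3
    exact h3

end Vale.Agent.P180.R2.H589.Ux
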