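import Vale.Agent.P180.R2.H589.Ux.Au5b

/-!
P180: automorphisms of `PSU(V)`, any characteristic: the quadratic part of the action on the
radical.
-/

set_option linter.all false

namespace Vale.Agent.P180.R2.H589.Ux

open Subgroup Module
open Vale.Agent.P180.R2.H589.Sch
open Vale.Agent.P180.R2.H589.Un
open Vale.Agent.P180.R2.H589.Sp (oo oo_ne finite_gl cj cj_apply)

section Span

variable {K W : Type*} [Field K] [AddCommGroup W] [Module K W] {θ : K ≃+* K}
  {h : W → W → K} (hθ : Iv θ) (hB : Hm θ h)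

include hθ hB in
/-- Every vector is a sum of isotropic vectors. -/
theorem iso_induction {e : W} (he0 : e ≠ 0) (he : h e e = 0) {P : AddSubgroup W}
    (hP : ∀ y, h y y = 0 → y ∈ P) (w : W) : w ∈ P := by
  obtain ⟨f, hf, hef⟩ := exists_pair hθ hB he0 he
  have hfe : h f e = 1 := by rw [hB.herm e f, hef, map_one]
  obtain ⟨x, hx⟩ : ∃ x, x = w - h w f • e - h w e • f := ⟨_, rfl⟩
  have hxe : h x e = 0 := by
    rw [hx, hB.subl, hB.subl, hB.sml, hB.sml, he, hfe]
    ring
  have hxf : h x f = 0 := by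
    rw [hx, hB.subl, hB.subl, hB.sml, hB.sml, hf, hef]
    ring
  obtain ⟨c, hc⟩ := exists_cond hB hθ x
  have h3 : h (c • e + x + f) (c • e + x + f) = 0 := by
    simp only [hB.addl, hB.addr, hB.sml, hB.smr, he, hf, hef, hfe, hxe, hxf, hB.swap hxe,
      hB.swap hxf]
    linear_combination hc
  have h4 := P.sub_mem (P.sub_mem (hP _ h3) (hP _ (smul_iso hB he c))) (hP f hf)
  have h5 : c • e + x + f - c • e - f = x := by abel
  rw [h5] at h4
  have h6 := P.add_mem (P.add_mem h4 (hP _ (smul_iso hB he (h w f))))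
    (hP _ (smul_iso hB hf (h w e)))
  have h7 : x + h w f • e + h w e • f = w := by
    rw [hx]
    abel
  rwa [h7] at h6

include hθ in
/-- the torus of the three-dimensional group generates the field -/
theorem mem_of_torus [Finite K] (hF : 2 < Nat.card (FF θ)) {A : Subring K}
    (htor : ∀ l : K, l ≠ 0 → θ l * (θ l / l) ∈ A) (c : K) : c ∈ A := by
  have hFA : ∀ c, θ c = c → c ∈ A := by
    intro c hc
    by_cases hc0 : c = 0
    · rw [hc0]
      exact A.zero_mem
    have h3 := htor c hc0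
    rw [hc, div_self hc0, mul_one] at h3
    exact h3
  obtain ⟨u, hu1, hu3⟩ := exists_cube hθ hF
  obtain ⟨y, hy0, hy⟩ := hilbert90 hθ hu1
  have h3 := htor y hy0
  refine mem_of_gen hθ hFA h3 ?_ c
  intro h4
  apply hu3
  have hyθ : θ y ≠ 0 := (map_ne_zero θ).mpr hy0
  rw [map_mul, map_div₀, hθ.inv] at h4
  have h5 : y ^ 3 = θ y ^ 3 := by
    field_simp at h4
    linear_combination h4
  have h6 : u ^ 3 * θ y ^ 3 = θ y ^ 3 := by rw [← mul_pow, hy, h5]
  exact mul_right_cancel₀ (pow_ne_zero 3 hyθ) (by rw [one_mul]; exact h6)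

end Span

section Nu

variable {K W : Type*} [Field K] [Finite K] [AddCommGroup W] [Module K W] {θ : K ≃+* K}
  {h : W → W → K} (hθ : Iv θ) (hB : Hm θ h) {ep : K} (h2 : ep + θ ep = 1)
  {T : Type*} [Group T] {π : SUG (hyp θ h) →* T}
  (p : ℕ) [hp : Fact p.Prime] [CharP K p] [Finite W] (hF : 2 < Nat.card (FF θ))
  (hW : ∃ x : W, x ≠ 0)
  (hker : π.ker = center (SUG (hyp θ h))) (hπ : Function.Surjective π)

include hp hF hW hker hπ in
/-- **The quadratic part.** -/
theorem nu_eq {β : MulAut T} (ht1 : ∀ x, β x ∈ XT π (oo K W) ↔ x ∈ XT π (oo K W))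
    (ht2 : ∀ x, β x ∈ XT π (o' K W) ↔ x ∈ XT π (o' K W)) {s : W ≃+ W} {τ : Z0 θ →+ Z0 θ}
    {ν : W → Z0 θ}
    (hmap : ∀ y z, β (π (rG hθ hB h2 y z)) = π (rG hθ hB h2 (s y) (ν y + τ z)))
    (hν : ∀ y y', ν (y + y') + τ (om hθ hB ep y y') = ν y + ν y' + om hθ hB ep (s y) (s y'))
    {σ : K ≃+* K} (hs : ∀ (c : K) y, s (c • y) = σ c • s y) {κ : K} (hκ : κ ≠ 0)
    (hκθ : θ κ = κ) (hform : ∀ y y', h (s y) (s y') = κ * σ (h y y'))
    (hτσ : ∀ z : Z0 θ, (τ z : K) = κ * σ z) (y : W) :
    (ν y : K) = (ep - σ ep) * h (s y) (s y) := by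
  haveI : Module.Finite K W := Module.Finite.of_finite
  have hσθ : ∀ c, θ (σ c) = σ (θ c) := fun c => Sp.ringEquiv_comm θ σ c
  obtain ⟨d, hd0, hd⟩ := exists_dl hθ
  obtain ⟨δ, hδ⟩ : ∃ δ : Z0 θ, (δ : K) = d := ⟨⟨d, by rw [mem_Z0, hd, add_neg_cancel]⟩, rfl⟩
  have hσ2 : σ ep + σ (θ ep) = 1 := by rw [← map_add, h2, map_one]
  have hzero : ν 0 = 0 := by
    have h3 := hν 0 0
    rw [add_zero, om_zl, map_zero, map_zero, om_zl, add_zero, add_zero] at h3
    exact left_eq_add.mp h3
  -- the difference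
  obtain ⟨μ, hμ⟩ : ∃ μ : W → K, ∀ y, μ y = (ν y : K) - (ep - σ ep) * h (s y) (s y) :=
    ⟨_, fun y => rfl⟩
  have hμadd : ∀ y y', μ (y + y') = μ y + μ y' := by
    intro y y'
    have h3 := congrArg (fun z : Z0 θ => (z : K)) (hν y y')
    simp only [AddSubgroup.coe_add, om_val, hτσ] at h3
    rw [map_sub, map_mul, map_mul, ← hσθ, hB.herm y y', hB.herm (s y) (s y')] at h3
    have h4 : σ (θ (h y y')) = θ (σ (h y y')) := (hσθ _).symm
    have h5 : θ (h (s y) (s y')) = κ * θ (σ (h y y')) := by rw [hform, map_mul, hκθ]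
    rw [h4, h5, hform y y', hσθ] at h3
    rw [hμ, hμ, hμ, map_add, hB.addl, hB.addr, hB.addr, hB.herm (s y) (s y'), h5, hform y y']
    linear_combination h3 - (κ * θ (σ (h y y'))) * (h2 - hσ2)
  have hμθ : ∀ y, μ y + θ (μ y) = 0 := by
    intro y
    rw [hμ, map_sub, map_mul, map_sub, hσθ, hB.fix, Z0_neg]
    linear_combination h (s y) (s y) * (hσ2 - h2)
  -- Levi elements
  have hlev : ∀ (a : SUG (hyp θ h)) (m : W ≃ₗ[K] W) (l : Kˣ), m ∈ UG h →
      (a : (K × W × K) ≃ₗ[K] (K × W × K)) = lv θ m l → ∀ y,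
        μ (θ (l : K) • m y) = σ ((l : K) * θ (l : K)) * μ y := by
    intro a m l hm ha y
    obtain ⟨b, m', l', hm', hb, hab, hrel⟩ := levi_rel hθ hB h2 p hker hπ ht1 ht2 hmap hm ha
    have hN : σ ((l : K) * θ (l : K)) = (l' : K) * θ (l' : K) := by
      have h3 := (hrel 0 δ).2
      rw [map_zero, smul_zero, hzero, zero_add, zero_add] at h3
      have h4 := congrArg (fun z : Z0 θ => (z : K)) h3
      simp only [hτσ, nz_val, hδ] at h4
      rw [map_mul σ] at h4
      have hσd : κ * σ d ≠ 0 := mul_ne_zero hκ ((map_ne_zero σ).mpr hd0)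
      exact mul_right_cancel₀ hσd (by linear_combination h4)
    have h3 := (hrel y 0).2
    have h4 := congrArg (fun z : Z0 θ => (z : K)) h3
    have h5 : nz hθ (l : K) 0 = 0 := Subtype.ext (mul_zero _)
    rw [h5, map_zero, add_zero, add_zero] at h4
    simp only [nz_val] at h4
    rw [hμ, hμ, h4, (hrel y 0).1, hB.sml, hB.smr, hθ.inv, mem_UG.mp hm', hN]
    ring
  -- the conclusion
  suffices hall : ∀ y, μ y = 0 by
    have h3 := hall y
    rw [hμ] at h3
    exact sub_eq_zero.mp h3
  by_cases hi : ∃ e : W, e ≠ 0 ∧ h e e = 0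
  · obtain ⟨e, he0, he⟩ := hi
    have hμ0 : μ 0 = 0 := by
      have := hμadd 0 0
      rw [add_zero] at this
      exact left_eq_add.mp this
    let P : AddSubgroup W :=
      { carrier := {y | μ y = 0}
        zero_mem' := hμ0
        add_mem' := fun {x y} hx hy => by
          change μ (x + y) = 0
          rw [hμadd, show μ x = 0 from hx, show μ y = 0 from hy, add_zero]
        neg_mem' := fun {x} hx => by
          change μ (-x) = 0
          have h3 := hμadd (-x) x
          rw [neg_add_cancel, hμ0, show μ x = 0 from hx, add_zero] at h3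
          exact h3.symm }
    have hP : ∀ y, y ∈ P ↔ μ y = 0 := fun y => Iff.rfl
    intro y
    refine (hP y).mp (iso_induction hθ hB he0 he (fun u hu => ?_) y)
    by_cases hu0 : u = 0
    · rw [hu0]
      exact P.zero_mem
    obtain ⟨x₀, hx₀⟩ := hB.exists_one hu0
    have hx₀' : h x₀ u = 1 := by rw [hB.herm u x₀, hx₀, map_one]
    have hdd : d + θ d = 0 := by rw [hd, add_neg_cancel]
    have hm : tU hB hu d ∈ UG h := tU_mem hB hu hdd
    obtain ⟨a, ha⟩ : ∃ a : SUG (hyp θ h),
        (a : (K × W × K) ≃ₗ[K] (K × W × K)) = lv θ (tU hB hu d) 1 := by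
      refine ⟨⟨lv θ (tU hB hu d) 1, lv_mem hm hθ _, ?_⟩, rfl⟩
      change LinearEquiv.det _ = 1
      rw [lv_det_val, tU_det, Units.val_one, map_one, inv_one, one_mul, one_mul]
    have h3 := hlev a _ 1 hm ha (d⁻¹ • x₀)
    rw [Units.val_one, map_one, one_smul, mul_one, map_one, one_mul, tU_apply, hB.sml, hx₀',
      mul_one, mul_inv_cancel₀ hd0, one_smul, hμadd] at h3
    exact (hP u).mpr (add_eq_left.mp h3)
  · have hd1 : finrank K W = 1 := by
      have h3 : ¬ 2 ≤ finrank K W := fun h4 => hi (exists_iso_vec hθ hB h4)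
      have h5 : finrank K W ≠ 0 := by
        intro h0
        obtain ⟨x, hx⟩ := hW
        haveI : Subsingleton W := Module.finrank_zero_iff.mp h0
        exact hx (Subsingleton.elim _ _)
      omega
    by_contra hcon
    push Not at hcon
    obtain ⟨y₀, hy₀⟩ := hcon
    have hμneg : ∀ y, μ (-y) = - μ y := by
      intro y
      have h3 := hμadd (-y) y
      rw [neg_add_cancel] at h3
      have h4 : μ 0 = 0 := by
        have := hμadd 0 0
        rw [add_zero] at this
        exact left_eq_add.mp this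
      rw [h4] at h3
      exact eq_neg_of_add_eq_zero_left h3.symm
    have hμ0 : μ 0 = 0 := by
      have := hμadd 0 0
      rw [add_zero] at this
      exact left_eq_add.mp this
    let A : Subring K :=
      { carrier := {c | ∃ c' : K, ∀ y, μ (c • y) = c' * μ y}
        zero_mem' := ⟨0, fun y => by rw [zero_smul, zero_mul, hμ0]⟩
        one_mem' := ⟨1, fun y => by rw [one_smul, one_mul]⟩
        add_mem' := by
          rintro a b ⟨a', ha⟩ ⟨b', hb⟩
          exact ⟨a' + b', fun y => by rw [add_smul, hμadd, ha, hb, add_mul]⟩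
        mul_mem' := by
          rintro a b ⟨a', ha⟩ ⟨b', hb⟩
          exact ⟨a' * b', fun y => by rw [mul_smul, ha, hb, mul_assoc]⟩
        neg_mem' := by
          rintro a ⟨a', ha⟩
          exact ⟨-a', fun y => by rw [neg_smul, hμneg, ha, neg_mul]⟩ }
    have hA : ∀ c, c ∈ A ↔ ∃ c' : K, ∀ y, μ (c • y) = c' * μ y := fun c => Iff.rfl
    have htor : ∀ l : K, l ≠ 0 → θ l * (θ l / l) ∈ A := by
      intro l hl0
      have hlθ : θ l ≠ 0 := (map_ne_zero θ).mpr hl0
      have hq0 : θ l / l ≠ 0 := div_ne_zero hlθ hl0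
      obtain ⟨m, hm⟩ : ∃ m : W ≃ₗ[K] W, m = LinearEquiv.smulOfNeZero K W _ hq0 := ⟨_, rfl⟩
      have hmy : ∀ y, m y = (θ l / l) • y := fun y => by rw [hm]; rfl
      have hmU : m ∈ UG h := by
        intro x y
        rw [hmy, hmy, hB.sml, hB.smr, map_div₀, hθ.inv]
        field_simp
      have hmdet : ((LinearEquiv.det m : Kˣ) : K) = θ l / l := by
        obtain ⟨e, he0, he⟩ := finrank_eq_one_iff'.mp hd1
        have h3 := scalar_dim_one hd1 m e
        rw [hmy] at h3
        have h4 : (θ l / l - ((LinearEquiv.det m : Kˣ) : K)) • e = 0 := by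
          rw [sub_smul, h3, sub_self]
        exact (sub_eq_zero.mp ((smul_eq_zero.mp h4).resolve_right he0)).symm
      obtain ⟨a, ha⟩ : ∃ a : SUG (hyp θ h),
          (a : (K × W × K) ≃ₗ[K] (K × W × K)) = lv θ m (Units.mk0 l hl0) := by
        refine ⟨⟨lv θ m (Units.mk0 l hl0), lv_mem hmU hθ _, ?_⟩, rfl⟩
        change LinearEquiv.det _ = 1
        rw [lv_det_val, hmdet, Units.val_mk0]
        field_simp
      rw [hA]
      refine ⟨σ (l * θ l), fun y => ?_⟩
      have h3 := hlev a m _ hmU ha y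
      rw [Units.val_mk0, hmy, smul_smul] at h3
      exact h3
    have hall : ∀ c, c ∈ A := mem_of_torus hθ hF htor
    choose S hS using fun c => (hA c).mp (hall c)
    let φ : K →+* K :=
      { toFun := S
        map_one' := by
          apply mul_right_cancel₀ hy₀
          rw [← hS, one_smul, one_mul]
        map_mul' := by
          intro a b
          apply mul_right_cancel₀ hy₀
          rw [← hS, mul_smul, hS, hS, mul_assoc]
        map_zero' := by
          apply mul_right_cancel₀ hy₀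
          rw [← hS, zero_smul, zero_mul, hμ0]
        map_add' := by
          intro a b
          apply mul_right_cancel₀ hy₀
          rw [← hS, add_smul, hμadd, hS, hS, add_mul] }
    have hφ : ∀ c, θ (φ c) = φ c := by
      intro c
      have h3 := hμθ (c • y₀)
      have h4 := hμθ y₀
      rw [hS, map_mul] at h3
      have h5 : (θ (S c) - S c) * μ y₀ = 0 := by linear_combination θ (S c) * h4 - h3
      exact sub_eq_zero.mp ((mul_eq_zero.mp h5).resolve_right hy₀)
    obtain ⟨c, hc⟩ := hθ.2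
    obtain ⟨c, rfl⟩ := (Finite.injective_iff_surjective.mp φ.injective) c
    exact hc (hφ c)

end Nu

end Vale.Agent.P180.R2.H589.Ux
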