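import Vale.Agent.P180.R2.H589.Ux.Au6
import Vale.Agent.P180.R2.H589.Un.Au7

/-!
P180: automorphisms of quotients of `SU(V)` by central subgroups: semilinear similitudes, the
derived series of the outer automorphism group, automorphisms of coprime order.
-/

set_option linter.all false

namespace Vale.Agent.P180.R2.H589.Ux

open Subgroup Module
open Vale.Agent.P180.R2.H589.Sch
open Vale.Agent.P180.R2.H589.Un
open Vale.Agent.P180.R2.H589.Sp (oo oo_ne finite_gl cj cj_apply)

section Level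

variable {K V : Type*} [Field K] [Finite K] [AddCommGroup V] [Module K V] [Module.Finite K V]
  {θ : K ≃+* K} {h : V → V → K} (hθ : Iv θ) (hB : Hm θ h)

include hθ hB

/-- **Every automorphism of `PSU(V)`**, `dim V ≥ 3`, is induced by a semilinear
similitude. -/
theorem exists_ssim (h2 : 2 < Nat.card (FF θ)) (hd : 2 < finrank K V) {T : Type*} [Group T]
    {π : SUG h →* T} (hπ : Function.Surjective π) (hker : π.ker = center (SUG h)) (α : MulAut T) :
    ∃ (g : V ≃+ V) (σ : K ≃+* K) (κ : K), SSim h g σ κ ∧ IndS π α g := by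
  haveI : Finite V := Module.finite_of_finite K
  haveI hp : Fact (ringChar K).Prime := ⟨CharP.char_is_prime K (ringChar K)⟩
  obtain ⟨o, ho0, ho⟩ := exists_iso_vec hθ hB (by omega)
  obtain ⟨o', ho', h1⟩ := exists_pair hθ hB ho0 ho
  have he := splitE_iso hB ho ho' h1
  have hBW := rs_hm hB (WW_nd hB ho ho' h1)
  obtain ⟨e, hee⟩ : ∃ e, e = splitE hB ho ho' h1 := ⟨_, rfl⟩
  rw [← hee] at he
  have he' : ∀ x y, h (e x) (e y) = hyp θ (rs h (WW hB o o')) x y := he
  have hW : ∃ x : WW hB o o', x ≠ 0 := by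
    by_contra hcon
    push Not at hcon
    have h3 : Subsingleton (WW hB o o') := ⟨fun x y => by rw [hcon x, hcon y]⟩
    have h4 := Module.finrank_zero_of_subsingleton (R := K) (M := WW hB o o')
    have h5 := e.finrank_eq
    rw [Module.finrank_prod, Module.finrank_prod, Module.finrank_self] at h5
    omega
  have hπ' : Function.Surjective (π.comp (cjG he').toMonoidHom) := hπ.comp (cjG he').surjective
  have hker' : (π.comp (cjG he').toMonoidHom).ker =
      center (SUG (hyp θ (rs h (WW hB o o')))) := by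
    ext x
    rw [MonoidHom.mem_ker]
    change π (cjG he' x) = 1 ↔ _
    rw [← MonoidHom.mem_ker, hker, mem_center_iff, mem_center_iff]
    constructor
    · intro h y
      apply (cjG he').injective
      rw [map_mul, map_mul, h]
    · intro h y
      obtain ⟨y, rfl⟩ := (cjG he').surjective y
      rw [← map_mul, ← map_mul, h]
  obtain ⟨g, σ, κ, hg, hind⟩ := exists_ssim_hyp hθ hBW (ringChar K) h2 hW hker' hπ' α
  refine ⟨(e.symm.toAddEquiv.trans g).trans e.toAddEquiv, σ, κ, ⟨fun c v => ?_, hg.ne,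
    fun u v => ?_⟩, fun x y hxy => ?_⟩
  · change e (g (e.symm (c • v))) = σ c • e (g (e.symm v))
    rw [map_smul, hg.sl, map_smul]
  · change h (e (g (e.symm u))) (e (g (e.symm v))) = _
    rw [he', hg.form, ← he', e.apply_symm_apply, e.apply_symm_apply]
  · obtain ⟨x, rfl⟩ := (cjG he').surjective x
    obtain ⟨y, rfl⟩ := (cjG he').surjective y
    refine hind x y fun v => ?_
    have h3 := hxy (e v)
    change e (g (e.symm ((cjG he' x : V ≃ₗ[K] V) (e v)))) =
      (cjG he' y : V ≃ₗ[K] V) (e (g (e.symm (e v)))) at h3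
    rw [cjG_apply, cjG_apply, e.symm_apply_apply, e.symm_apply_apply] at h3
    exact e.injective h3

end Level

section LevelL

variable {K : Type} [Field K] [Finite K] {V : Type} [AddCommGroup V] [Module K V]
  [Module.Finite K V] {θ : K ≃+* K} {h : V → V → K} (hθ : Iv θ) (hB : Hm θ h)
  {g k : V ≃+ V} {σ τ : K ≃+* K} {κ μ : K}

include hθ hB

/-- conjugation by a semilinear similitude -/
theorem _root_.Vale.Agent.P180.R2.H589.Un.SSim.exists_conjX (h2 : 2 < Nat.card (FF θ)) (hV : ∃ v : V, v ≠ 0) (hg : SSim h g σ κ)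
    (x : SUG h) : ∃ y : SUG h, ∀ v, g ((x : V ≃ₗ[K] V) v) = (y : V ≃ₗ[K] V) (g v) := by
  have h3 : (x : V ≃ₗ[K] V) ∈ TG hB := by
    rw [← SUG_eq_TG hθ (h2) hB]
    exact x.2
  obtain ⟨y, hy, h4⟩ := hg.exists_TG hB hV h3
  exact ⟨⟨y, TG_le hB hy⟩, h4⟩

/-- **Automorphisms of quotients `L` of `SU(V)` by central subgroups.** -/
theorem exists_ssim_L (hF : 3 < Nat.card (FF θ)) (hd : 2 < finrank K V)
    {L : Type*} [Group L] {π : SUG h →* L} (hπ : Function.Surjective π)
    (hk : π.ker ≤ center (SUG h)) (α : MulAut L) :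
    ∃ (g : V ≃+ V) (σ : K ≃+* K) (κ : K), SSim h g σ κ ∧ IndS π α g := by
  have hperf := SUG_perfect' hθ hF hB
  have h2 : 2 < Nat.card (FF θ) := by omega
  have hV : ∃ v : V, v ≠ 0 := by
    obtain ⟨o, ho0, ho⟩ := exists_iso_vec hθ hB (by omega)
    exact ⟨o, ho0⟩
  let πT : SUG h →* L ⧸ center L := (QuotientGroup.mk' (center L)).comp π
  have hπT : Function.Surjective πT := (QuotientGroup.mk'_surjective _).comp hπ
  have hkT : πT.ker = center (SUG h) := ker_center hperf hπ hk
  have hcen : (center L).map α.toMonoidHom = center L := by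
    ext t
    constructor
    · rintro ⟨z, hz, rfl⟩
      rw [mem_center_iff]
      intro y
      obtain ⟨y, rfl⟩ := α.surjective y
      change α y * α z = α z * α y
      rw [← map_mul, ← map_mul, mem_center_iff.mp hz y]
    · intro ht
      refine ⟨α.symm t, ?_, α.apply_symm_apply t⟩
      change α.symm t ∈ center L
      rw [mem_center_iff]
      intro y
      apply α.injective
      rw [map_mul, map_mul, α.apply_symm_apply, mem_center_iff.mp ht]
  let αT : MulAut (L ⧸ center L) := QuotientGroup.congr (center L) (center L) α hcen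
  obtain ⟨g, σ, κ, hg, hind⟩ := exists_ssim hθ hB h2 hd hπT hkT αT
  refine ⟨g, σ, κ, hg, ?_⟩
  choose Y hY using fun x : SUG h => hg.exists_conjX hθ hB h2 hV x
  have huniq : ∀ x y : SUG h, (∀ v, g ((x : V ≃ₗ[K] V) v) = (y : V ≃ₗ[K] V) (g v)) →
      Y x = y := by
    intro x y hxy
    apply Subtype.ext
    apply LinearEquiv.ext
    intro w
    obtain ⟨v, rfl⟩ := g.surjective w
    rw [← hY, hxy]
  let f₁ : SUG h →* L := α.toMonoidHom.comp π
  let f₂ : SUG h →* L := π.comp
    { toFun := Y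
      map_one' := huniq _ _ fun v => rfl
      map_mul' := fun x z => huniq _ _ fun v => by
        change g ((x : V ≃ₗ[K] V) ((z : V ≃ₗ[K] V) v)) = (Y x : V ≃ₗ[K] V) ((Y z : V ≃ₗ[K] V) (g v))
        rw [hY, hY] }
  have heq : f₁ = f₂ := by
    apply Bt.eq_of_central hperf
    intro x
    have h3 : αT (πT x) = πT (Y x) := hind x (Y x) (hY x)
    exact QuotientGroup.eq.mp h3
  intro x y hxy
  rw [← huniq x y hxy]
  exact congrArg (fun f : SUG h →* L => f x) heq

end LevelL

section Main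

variable {K : Type} [Field K] [Finite K] {V : Type} [AddCommGroup V] [Module K V]
  [Module.Finite K V] {θ : K ≃+* K} {h : V → V → K} (hθ : Iv θ) (hB : Hm θ h)
  {L : Type*} [Group L] {π : SUG h →* L} {g k : V ≃+ V} {σ τ : K ≃+* K} {κ μ : K}
  {α β : MulAut L} (h2 : 2 < Nat.card (FF θ)) (hV : ∃ v : V, v ≠ 0)

include hθ hB h2 hV in
theorem _root_.Vale.Agent.P180.R2.H589.Un.IndS.mulX (hk : SSim h k τ μ) (h1 : IndS π α g) (h3 : IndS π β k) :
    IndS π (α * β) (k.trans g) := by
  intro x z hxz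
  obtain ⟨y, hy⟩ := hk.exists_conjX hθ hB h2 hV x
  rw [MulAut.mul_apply, h3 x y hy]
  refine h1 y z fun w => ?_
  obtain ⟨v, rfl⟩ := k.surjective w
  rw [← hy]
  exact hxz v

/-- the automorphisms induced by linear similitudes -/
def LinS (hθ : Iv θ) (hB : Hm θ h) (h2 : 2 < Nat.card (FF θ)) (hV : ∃ v : V, v ≠ 0) (π : SUG h →* L) :
    Subgroup (MulAut L) where
  carrier := {α | ∃ (g : V ≃+ V) (κ : K), SSim h g (RingEquiv.refl K) κ ∧ IndS π α g}
  one_mem' := by
    refine ⟨AddEquiv.refl V, 1, ⟨fun c v => rfl, one_ne_zero, fun u v => (one_mul _).symm⟩, ?_⟩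
    intro x y hxy
    have h1 : x = y := Subtype.ext (LinearEquiv.ext hxy)
    rw [h1]
    rfl
  mul_mem' := by
    rintro α β ⟨g, κ, hg, h1⟩ ⟨k, μ, hk, h3⟩
    exact ⟨k.trans g, κ * μ, hg.mul hk, h1.mulX hθ hB h2 hV hk h3⟩
  inv_mem' := by
    rintro α ⟨g, κ, hg, h1⟩
    exact ⟨g.symm, κ⁻¹, hg.inv, h1.inv⟩

include hθ hB h2 hV in
open scoped commutatorElement in
/-- **The outer automorphism group is solvable.** -/
theorem derived_le (hπ : Function.Surjective π)
    (H : ∀ α : MulAut L, ∃ (g : V ≃+ V) (σ : K ≃+* K) (κ : K), SSim h g σ κ ∧ IndS π α g) :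
    derivedSeries (MulAut L) 2 ≤ (MulAut.conj : L →* MulAut L).range := by
  have d1 : derivedSeries (MulAut L) 1 ≤ LinS hθ hB h2 hV π := by
    rw [derivedSeries_succ, derivedSeries_zero, commutator_le]
    intro α _ β _
    obtain ⟨g, σ, κ, hg, h1⟩ := H α
    obtain ⟨k, τ, μ, hk, h3⟩ := H β
    have h4 := (hg.mul (hk.mul (hg.inv.mul hk.inv)))
    have h5 := h1.mulX hθ hB h2 hV (hk.mul (hg.inv.mul hk.inv))
      (h3.mulX hθ hB h2 hV (hg.inv.mul hk.inv) (h1.inv.mulX hθ hB h2 hV hk.inv h3.inv))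
    have h6 : (((τ.symm.trans σ.symm).trans τ).trans σ) = RingEquiv.refl K := by
      ext c
      change σ (τ (σ.symm (τ.symm c))) = c
      rw [Sp.ringEquiv_comm τ σ.symm, σ.apply_symm_apply, τ.apply_symm_apply]
    rw [h6] at h4
    have h7 : ⁅α, β⁆ = α * (β * (α⁻¹ * β⁻¹)) := by
      rw [commutatorElement_def]
      group
    rw [h7]
    exact ⟨_, _, h4, h5⟩
  rw [derivedSeries_succ, commutator_le]
  intro α hα β hβ
  obtain ⟨g, κ, hg, h1⟩ := d1 hα
  obtain ⟨k, μ, hk, h3⟩ := d1 hβ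
  have h4 := (hg.mul (hk.mul (hg.inv.mul hk.inv)))
  have h5 := h1.mulX hθ hB h2 hV (hk.mul (hg.inv.mul hk.inv))
    (h3.mulX hθ hB h2 hV (hg.inv.mul hk.inv) (h1.inv.mulX hθ hB h2 hV hk.inv h3.inv))
  have h6 : ⁅α, β⁆ = α * (β * (α⁻¹ * β⁻¹)) := by
    rw [commutatorElement_def]
    group
  rw [h6]
  obtain ⟨zg, hzg⟩ := hg.exists_lin
  obtain ⟨zk, hzk⟩ := hk.exists_lin
  have hzg' : ∀ v, zg⁻¹ v = g.symm v := by
    intro v
    apply zg.injective
    have h7 : zg (zg⁻¹ v) = v := zg.apply_symm_apply v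
    rw [h7, hzg, g.apply_symm_apply]
  have hzk' : ∀ v, zk⁻¹ v = k.symm v := by
    intro v
    apply zk.injective
    have h7 : zk (zk⁻¹ v) = v := zk.apply_symm_apply v
    rw [h7, hzk, k.apply_symm_apply]
  have h7 : κ * (μ * (κ⁻¹ * μ⁻¹)) = (1 : K) := by
    have := hg.ne
    have := hk.ne
    field_simp
  have h8 : ∀ v, (((k.symm.trans g.symm).trans k).trans g) v = (zg * zk * zg⁻¹ * zk⁻¹) v := by
    intro v
    change g (k (g.symm (k.symm v))) = zg (zk (zg⁻¹ (zk⁻¹ v)))
    rw [hzk', hzg', hzk, hzg]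
  refine IndS.inner hπ one_ne_zero (z := zg * zk * zg⁻¹ * zk⁻¹) ⟨?_, ?_⟩ ?_ h5
  · intro u v
    have h9 := h4.form u v
    rw [h8, h8] at h9
    rw [h9]
    change κ * (μ * (κ⁻¹ * μ⁻¹)) * h u v = h u v
    rw [h7, one_mul]
  · change LinearEquiv.det _ = 1
    rw [map_mul, map_mul, map_mul, map_inv, map_inv]
    have := mul_comm (LinearEquiv.det zg) (LinearEquiv.det zk)
    rw [this]
    group
  · intro v
    rw [h8, one_smul]

include hθ hB h2 in
/-- A semilinear similitude which induces the identity is linear. -/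
theorem refl_of_ind (hd3 : 2 < finrank K V) (hk : π.ker ≤ center (SUG h)) (hg : SSim h g σ κ)
    (h1 : IndS π 1 g) : σ = RingEquiv.refl K := by
  haveI hp : Fact (ringChar K).Prime := ⟨CharP.char_is_prime K (ringChar K)⟩
  haveI : Finite V := Module.finite_of_finite K
  haveI : Finite (V ≃ₗ[K] V) := finite_gl
  have hσθ : ∀ c, θ (σ c) = σ (θ c) := fun c => Sp.ringEquiv_comm θ σ c
  obtain ⟨u, hu0, hu⟩ := exists_iso_vec hθ hB (by omega)
  obtain ⟨v, hv, huv⟩ := exists_pair hθ hB hu0 hu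
  have hvu : h v u = 1 := by rw [hB.herm u v, huv, map_one]
  have hv0 : v ≠ 0 := by
    rintro rfl
    rw [hB.zr] at huv
    exact zero_ne_one huv
  have hκθ := hg.fx hB ⟨u, hu0⟩
  obtain ⟨d, hd0, hd⟩ := exists_dl hθ
  -- the centre has order prime to `p`
  have hkp : ¬ ringChar K ∣ Nat.card π.ker := by
    intro hdv
    obtain ⟨w, hw⟩ := exists_prime_orderOf_dvd_card' (ringChar K) hdv
    have h3 : (w : SUG h) ^ ringChar K = 1 := by
      have h4 : w ^ ringChar K = 1 := by rw [← hw]; exact pow_orderOf_eq_one w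
      exact congrArg Subtype.val h4
    have hpel : Pel (ringChar K) (w : SUG h) := ⟨1, by rw [pow_one, h3]⟩
    obtain ⟨c, hc⟩ := line_of_center hB hθ (hk w.2) hu0 hu
    -- the order is prime, the central element is scalar on isotropic lines
    have hcw : ∀ x, h x x = 0 → x ≠ 0 → ∃ c : K, ((w : SUG h) : V ≃ₗ[K] V) x = c • x ∧ c = 1 := by
      intro x hx hx0
      obtain ⟨c, hc⟩ := line_of_center hB hθ (hk w.2) hx0 hx
      refine ⟨c, hc, ?_⟩
      have h4 : ∀ n : ℕ, (((w : SUG h) : V ≃ₗ[K] V) ^ n) x = c ^ n • x := by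
        intro n
        induction n with
        | zero => rw [pow_zero, pow_zero, one_smul]; rfl
        | succ n ih => rw [pow_succ', LinearEquiv.mul_apply, ih, map_smul, hc, smul_smul, pow_succ]
      have h5 : (((w : SUG h) : V ≃ₗ[K] V) ^ ringChar K) = 1 := congrArg Subtype.val h3
      have h6 := h4 (ringChar K)
      rw [h5] at h6
      have h7 : (c ^ ringChar K - 1) • x = 0 := by
        rw [sub_smul, ← h6, one_smul]
        exact sub_self x
      have h8 := (smul_eq_zero.mp h7).resolve_right hx0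
      have h9 : (c - 1) ^ ringChar K = 0 := by rw [sub_pow_char, one_pow, h8]
      exact sub_eq_zero.mp (pow_eq_zero_iff hp.out.ne_zero |>.mp h9)
    -- transvections generate
    have h4 : ∀ y : V, ((w : SUG h) : V ≃ₗ[K] V) y = y := by
      intro y
      have h5 : (y - h y v • u - h y u • v) - (y - h y v • u - h y u • v) = 0 := sub_self _
      obtain ⟨x, hx⟩ : ∃ x, x = y - h y v • u - h y u • v := ⟨_, rfl⟩
      have hxu : h x u = 0 := by
        rw [hx, hB.subl, hB.subl, hB.sml, hB.sml, hu, hvu]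
        ring
      have hxv : h x v = 0 := by
        rw [hx, hB.subl, hB.subl, hB.sml, hB.sml, hv, huv]
        ring
      obtain ⟨c, hc⟩ := exists_cond hB hθ x
      have h3 : h (c • u + x + v) (c • u + x + v) = 0 := by
        simp only [hB.addl, hB.addr, hB.sml, hB.smr, hu, hv, huv, hvu, hxu, hxv, hB.swap hxu,
          hB.swap hxv]
        linear_combination hc
      have h30 : c • u + x + v ≠ 0 := by
        intro h0
        have h4 := congrArg (fun w => h w u) h0
        simp only [hB.addl, hB.sml, hu, hxu, hvu, hB.zl] at h4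
        rw [mul_zero, zero_add, zero_add] at h4
        exact one_ne_zero h4
      have hfu : ((w : SUG h) : V ≃ₗ[K] V) u = u := by
        obtain ⟨c, hc, rfl⟩ := hcw u hu hu0
        rwa [one_smul] at hc
      have hfv : ((w : SUG h) : V ≃ₗ[K] V) v = v := by
        obtain ⟨c, hc, rfl⟩ := hcw v hv hv0
        rwa [one_smul] at hc
      have hfs : ((w : SUG h) : V ≃ₗ[K] V) (c • u + x + v) = c • u + x + v := by
        obtain ⟨c, hc, rfl⟩ := hcw _ h3 h30
        rwa [one_smul] at hc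
      rw [map_add, map_add, map_smul, hfu, hfv] at hfs
      have hfx := add_left_cancel (add_right_cancel hfs)
      have hy : y = x + h y v • u + h y u • v := by
        rw [hx]
        abel
      rw [hy, map_add, map_add, map_smul, map_smul, hfu, hfv, hfx]
    have h5 : w = 1 := Subtype.ext (Subtype.ext (LinearEquiv.ext h4))
    rw [h5, orderOf_one] at hw
    exact hp.out.one_lt.ne hw
  -- `g` stabilises all isotropic lines
  have h3 : ∀ v : V, v ≠ 0 → h v v = 0 → ∃ k : K, g v = k • v := by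
    intro v hv0 hv
    have hgv : h (g v) (g v) = 0 := by rw [hg.form, hv, map_zero, mul_zero]
    obtain ⟨x, hx⟩ := exists_isU hB hv (c := d) (by rw [hd, add_neg_cancel])
    obtain ⟨y, hy⟩ := exists_isU hB hgv (c := κ⁻¹ * σ d)
      (by rw [map_mul, map_inv₀, hκθ, hσθ, hd, map_neg]; ring)
    have h4 : ∀ w, g ((x : V ≃ₗ[K] V) w) = (y : V ≃ₗ[K] V) (g w) := by
      intro w
      rw [hx, hy, map_add, hg.sl, hg.form, map_mul]
      congr 2
      have := hg.ne
      field_simp
    have h5 := h1 _ _ h4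
    have h6 : x = y :=
      pel_inj (ringChar K) hk hkp (isU_pel _ hB hv hx) (isU_pel _ hB hgv hy) h5
    rw [← h6] at hy
    exact hx.line hB hv0 hd0 hy
  obtain ⟨a, ha⟩ := h3 u hu0 hu
  obtain ⟨b, hb⟩ := h3 v hv0 hv
  have ha0 : a ≠ 0 := by
    rintro rfl
    rw [zero_smul] at ha
    exact hu0 (g.map_eq_zero_iff.mp ha)
  have hb0 : b ≠ 0 := by
    rintro rfl
    rw [zero_smul] at hb
    exact hv0 (g.map_eq_zero_iff.mp hb)
  -- a vector of norm one which is orthogonal to the hyperbolic pair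
  obtain ⟨x₁, hx₁u, hx₁v, hx₁⟩ : ∃ x₁, h x₁ u = 0 ∧ h x₁ v = 0 ∧ h x₁ x₁ = 1 := by
    have h4 := (splitE hB hu hv huv).finrank_eq
    rw [Module.finrank_prod, Module.finrank_prod, Module.finrank_self] at h4
    obtain ⟨x₁, hx₁⟩ := exists_norm_one hθ (rs_hm hB (WW_nd hB hu hv huv)) (by omega)
    exact ⟨x₁, x₁.2.1, x₁.2.2, hx₁⟩
  have hgx : ∀ x, h x u = 0 → h (g x) u = 0 := by
    intro x hx
    have h4 := hg.form x u
    rw [hx, map_zero, mul_zero, ha, hB.smr] at h4
    exact (mul_eq_zero.mp h4).resolve_left ((map_ne_zero θ).mpr ha0)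
  have hgx' : ∀ x, h x v = 0 → h (g x) v = 0 := by
    intro x hx
    have h4 := hg.form x v
    rw [hx, map_zero, mul_zero, hb, hB.smr] at h4
    exact (mul_eq_zero.mp h4).resolve_left ((map_ne_zero θ).mpr hb0)
  have key : ∀ c : K, σ c * a = b * c := by
    intro c
    obtain ⟨y, hy⟩ := exists_nm hθ (a := -(c + θ c)) (by rw [map_neg, tr_fix hθ])
    obtain ⟨x, hx⟩ : ∃ x, x = y • x₁ := ⟨_, rfl⟩
    have hxu : h x u = 0 := by rw [hx, hB.sml, hx₁u, mul_zero]
    have hxv : h x v = 0 := by rw [hx, hB.sml, hx₁v, mul_zero]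
    have hxx : h x x = -(c + θ c) := by
      rw [hx, hB.sml, hB.smr, hx₁, mul_one]
      exact hy
    have h4 : c • u + x + v ≠ 0 := by
      intro h0
      have h5 := congrArg (fun w => h w u) h0
      simp only [hB.addl, hB.sml, hu, hvu, hxu, hB.zl] at h5
      rw [mul_zero, zero_add, zero_add] at h5
      exact one_ne_zero h5
    have h5 : h (c • u + x + v) (c • u + x + v) = 0 := by
      simp only [hB.addl, hB.addr, hB.sml, hB.smr, hu, hv, huv, hvu, hxu, hxv, hB.swap hxu,
        hB.swap hxv, hxx]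
      ring
    obtain ⟨k, hk⟩ := h3 _ h4 h5
    rw [map_add, map_add, hg.sl, ha, hb] at hk
    have h6 := congrArg (fun w => h w v) hk
    have h7 := congrArg (fun w => h w u) hk
    simp only [hB.addl, hB.sml, hu, hv, huv, hvu, hxu, hxv, hgx x hxu, hgx' x hxv, mul_zero,
      mul_one, zero_add, add_zero] at h6 h7
    rw [h6, h7]
  have hab := key 1
  rw [map_one, one_mul, mul_one] at hab
  ext c
  have h4 := key c
  rw [← hab, mul_comm] at h4
  exact mul_left_cancel₀ ha0 h4

include hθ hB h2 in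
/-- **Automorphisms of order prime to `|Aut K|` and to the dimension are inner.** -/
theorem inner_of_coprime (hd : 2 < finrank K V) (hπ : Function.Surjective π)
    (hk : π.ker ≤ center (SUG h))
    (H : ∀ α : MulAut L, ∃ (g : V ≃+ V) (σ : K ≃+* K) (κ : K), SSim h g σ κ ∧ IndS π α g)
    {α : MulAut L} {m : ℕ} (hc : m.Coprime (Nat.card (K ≃+* K)))
    (hcd : m.Coprime (finrank K V)) (hα : α ^ m = 1) :
    α ∈ (MulAut.conj : L →* MulAut L).range := by
  have hV : ∃ v : V, v ≠ 0 := by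
    obtain ⟨o, ho0, ho⟩ := exists_iso_vec hθ hB (by omega)
    exact ⟨o, ho0⟩
  obtain ⟨g, σ, κ, hg, h1⟩ := H α
  have hpow : ∀ n : ℕ, ∃ (g' : V ≃+ V) (κ' : K), SSim h g' ((σ : RingAut K) ^ n) κ' ∧
      IndS π (α ^ n) g' := by
    intro n
    induction n with
    | zero =>
      refine ⟨AddEquiv.refl V, 1, ⟨fun c v => rfl, one_ne_zero, fun u v => (one_mul _).symm⟩, ?_⟩
      intro x y hxy
      have h1 : x = y := Subtype.ext (LinearEquiv.ext hxy)
      rw [h1, pow_zero]
      rfl
    | succ n ih =>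
      obtain ⟨g', κ', h3, h4⟩ := ih
      refine ⟨g.trans g', κ' * ((σ : RingAut K) ^ n) κ, ?_, ?_⟩
      · have h5 := h3.mul hg
        rw [pow_succ]
        exact h5
      · rw [pow_succ]
        exact h4.mulX hθ hB h2 hV hg h1
  obtain ⟨g', κ', h3, h4⟩ := hpow m
  rw [hα] at h4
  have h5 : ((σ : RingAut K) ^ m) = 1 := refl_of_ind hθ hB h2 hd hk h3 h4
  haveI : Finite (RingAut K) := Finite.of_injective (fun e : K ≃+* K => (e : K → K))
    (fun e e' h => RingEquiv.ext (congrFun h))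
  have h6 : (σ : RingAut K) = 1 := by
    have h6 := orderOf_dvd_of_pow_eq_one h5
    have h7 : orderOf (σ : RingAut K) ∣ Nat.card (RingAut K) := orderOf_dvd_natCard _
    have h8 := Nat.eq_one_of_dvd_coprimes hc h6 h7
    exact orderOf_eq_one_iff.mp h8
  have h7 : σ = RingEquiv.refl K := h6
  subst h7
  obtain ⟨z, hz⟩ := hg.exists_lin
  have hκθ := hg.fx hB hV
  obtain ⟨c, hc0, hcn⟩ := exists_nm_ne hθ hκθ hg.ne
  -- an isometry
  obtain ⟨u, hu⟩ : ∃ u : V ≃ₗ[K] V, ∀ v, z v = c • u v := by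
    refine ⟨z.trans (LinearEquiv.smulOfNeZero K V c⁻¹ (inv_ne_zero hc0)), fun v => ?_⟩
    change z v = c • (c⁻¹ • z v)
    rw [smul_smul, mul_inv_cancel₀ hc0, one_smul]
  have huU : u ∈ UG h := by
    intro x y
    have h8 := hg.form x y
    rw [← hz, ← hz, hu, hu, hB.sml, hB.smr, RingEquiv.refl_apply, ← mul_assoc, hcn] at h8
    exact mul_left_cancel₀ hg.ne h8
  -- powers
  have hpow2 : ∀ n : ℕ, ∃ g' : V ≃+ V, (∀ v, g' v = c ^ n • (u ^ n) v) ∧ IndS π (α ^ n) g' := by
    intro n
    induction n with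
    | zero =>
      refine ⟨AddEquiv.refl V, fun v => by rw [pow_zero, pow_zero, one_smul]; rfl, ?_⟩
      intro x y hxy
      have h1 : x = y := Subtype.ext (LinearEquiv.ext hxy)
      rw [h1, pow_zero]
      rfl
    | succ n ih =>
      obtain ⟨g', h8, h9⟩ := ih
      refine ⟨g.trans g', fun v => ?_, ?_⟩
      · change g' (g v) = _
        rw [h8, ← hz, hu, map_smul, smul_smul, ← pow_succ, pow_succ u, LinearEquiv.mul_apply]
      · rw [pow_succ]
        exact h9.mulX hθ hB h2 hV hg h1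
  obtain ⟨g₁, h8, h9⟩ := hpow2 (finrank K V)
  -- the `d`-th power is inner
  obtain ⟨δ, hδ⟩ : ∃ δ : Kˣ, δ = LinearEquiv.det u := ⟨_, rfl⟩
  have hδn : (δ : K) * θ (δ : K) = 1 := by
    rw [hδ]
    exact nm_det hθ hB huU
  obtain ⟨w, hw⟩ : ∃ w : V ≃ₗ[K] V, ∀ v, (u ^ finrank K V) v = (δ : K) • w v := by
    refine ⟨(u ^ finrank K V).trans (LinearEquiv.smulOfNeZero K V (δ : K)⁻¹
      (inv_ne_zero δ.ne_zero)), fun v => ?_⟩
    change (u ^ finrank K V) v = (δ : K) • ((δ : K)⁻¹ • (u ^ finrank K V) v)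
    rw [smul_smul, mul_inv_cancel₀ δ.ne_zero, one_smul]
  have hwU : w ∈ UG h := by
    intro x y
    have h10 := mem_UG.mp ((UG h).pow_mem huU (finrank K V)) x y
    rw [hw, hw, hB.sml, hB.smr, ← mul_assoc, hδn, one_mul] at h10
    exact h10
  have hwdet : LinearEquiv.det w = 1 := by
    have h10 : u ^ finrank K V = LinearEquiv.smulOfNeZero K V (δ : K) δ.ne_zero * w :=
      LinearEquiv.ext hw
    have h11 : LinearEquiv.det (LinearEquiv.smulOfNeZero K V (δ : K) δ.ne_zero) =
        δ ^ finrank K V := by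
      apply Units.ext
      rw [LinearEquiv.coe_det]
      have h12 : ((LinearEquiv.smulOfNeZero K V (δ : K) δ.ne_zero : V ≃ₗ[K] V) : V →ₗ[K] V) =
          (δ : K) • LinearMap.id := LinearMap.ext fun x => rfl
      rw [h12, LinearMap.det_smul, LinearMap.det_id, mul_one, Units.val_pow_eq_pow_val]
    have h12 := congrArg LinearEquiv.det h10
    rw [map_pow, map_mul, h11, ← hδ] at h12
    exact (mul_eq_left.mp h12.symm)
  have h10 : α ^ finrank K V ∈ (MulAut.conj : L →* MulAut L).range := by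
    refine IndS.inner hπ (c := c ^ finrank K V * δ)
      (mul_ne_zero (pow_ne_zero _ hc0) δ.ne_zero) (z := w) ⟨hwU, hwdet⟩ (fun v => ?_) h9
    rw [h8, hw, smul_smul]
  -- coprimality
  have h11 : α ∈ zpowers (α ^ finrank K V) := by
    have h12 : orderOf α ∣ m := orderOf_dvd_of_pow_eq_one hα
    have h13 : (orderOf α).Coprime (finrank K V) := Nat.Coprime.coprime_dvd_left h12 hcd
    exact mem_zpowers_pow_iff.mpr h13.symm
  obtain ⟨i, hi⟩ := h11
  rw [← hi]
  exact Subgroup.zpow_mem _ h10 i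

end Main

end Vale.Agent.P180.R2.H589.Ux
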